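import Vale.Agent.P105.Meas

namespace Vale.Agent.P105

open Real Finset Filter MeasureTheory Polynomial

lemma tri_of {β : ℝ} {w : ℂ} (hβ : 1 < β) (hw : ‖w‖ = 1) {a b : ℤ}
    (ha : β + β⁻¹ + 2 * w.re = a) (hb : (β + β⁻¹) * (2 * w.re) = b) (k : ℤ) :
    ∃ z : ℤ, β ^ k + β ^ (-k) + 2 * (w ^ k).re = z := by
  have hβ0 : β ≠ 0 := by linarith
  have hl : β * β⁻¹ = 1 := mul_inv_cancel₀ hβ0
  have hww : w * (starRingEnd ℂ) w = 1 := by
    rw [Complex.mul_conj, Complex.normSq_eq_norm_sq, hw]; simp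
  set u := β + β⁻¹ with hu
  set v := 2 * w.re with hv
  set p : ℕ → ℝ := fun n => β ^ n + β⁻¹ ^ n with hp
  set q : ℕ → ℝ := fun n => 2 * (w ^ n).re with hq
  have hp2 : ∀ n, p (n + 2) = u * p (n + 1) - p n := fun n => by
    simp only [hp, hu]
    linear_combination (-(β ^ n) - β⁻¹ ^ n) * hl
  have hq2 : ∀ n, q (n + 2) = v * q (n + 1) - q n := fun n => by
    simp only [hq]
    have e : w ^ (n + 2) = (v : ℂ) * w ^ (n + 1) - w ^ n := by
      have : (v : ℂ) = w + (starRingEnd ℂ) w := by rw [Complex.add_conj, hv]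
      rw [this]
      linear_combination (-(w ^ n)) * hww
    rw [e, Complex.sub_re, Complex.re_ofReal_mul]
    ring
  have key : ∀ n, ((∃ z : ℤ, p n + q n = z) ∧ ∃ z : ℤ, u * p n + v * q n = z) ∧
      ((∃ z : ℤ, p (n + 1) + q (n + 1) = z) ∧ ∃ z : ℤ, u * p (n + 1) + v * q (n + 1) = z) := by
    intro n
    induction n with
    | zero =>
      have e0 : p 0 = 2 := by simp only [hp]; norm_num
      have e1 : q 0 = 2 := by simp [hq]
      have e2 : p (0 + 1) = u := by simp [hp, hu]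
      have e3 : q (0 + 1) = v := by simp [hq, hv]
      rw [e0, e1, e2, e3]
      refine ⟨⟨⟨4, by norm_num⟩, ⟨2 * a, ?_⟩⟩, ⟨a, ha⟩, ⟨a ^ 2 - 2 * b, ?_⟩⟩
      · push_cast; linarith
      · push_cast; rw [← ha, ← hb]; ring
    | succ n ih =>
      obtain ⟨⟨⟨z1, h1⟩, ⟨z2, h2⟩⟩, ⟨z3, h3⟩, ⟨z4, h4⟩⟩ := ih
      refine ⟨⟨⟨z3, h3⟩, ⟨z4, h4⟩⟩, ⟨z4 - z1, ?_⟩, ⟨a * z4 - b * z3 - z2, ?_⟩⟩
      · rw [hp2, hq2]; push_cast; linarith
      · rw [hp2, hq2]; push_cast
        rw [← h2, ← h3, ← h4, ← ha, ← hb]; ring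
  rcases Int.eq_nat_or_neg k with ⟨n, rfl | rfl⟩
  · obtain ⟨z, hz⟩ := (key n).1.1
    refine ⟨z, ?_⟩
    rw [← hz, zpow_neg, zpow_natCast, zpow_natCast]
    simp [hp, hq]
  · obtain ⟨z, hz⟩ := (key n).1.1
    refine ⟨z, ?_⟩
    rw [← hz, neg_neg, zpow_neg, zpow_neg, zpow_natCast, zpow_natCast,
      Complex.inv_eq_conj (by rw [norm_pow, hw, one_pow]), Complex.conj_re]
    simp only [hp, hq, inv_pow]
    ring

lemma integral_of_eq {x : ℝ} {a b : ℤ} (h : x ^ 4 - a * x ^ 3 + b * x ^ 2 - a * x + 1 = 0) :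
    IsIntegral ℤ x :=
  ⟨X ^ 4 - C a * X ^ 3 + C b * X ^ 2 - C a * X + 1, by monicity!, by
    simp only [eval₂_add, eval₂_sub, eval₂_mul, eval₂_pow, eval₂_C, eval₂_X, eval₂_one]
    simpa using h⟩

lemma inv_eq {x : ℝ} (hx : x ≠ 0) {a b : ℤ} (h : x ^ 4 - a * x ^ 3 + b * x ^ 2 - a * x + 1 = 0) :
    x⁻¹ ^ 4 - a * x⁻¹ ^ 3 + b * x⁻¹ ^ 2 - a * x⁻¹ + 1 = 0 := by
  field_simp
  linear_combination h

theorem quartic {β : ℝ} (hβ : 1 < β) {a b : ℤ}
    (h : β ^ 4 - a * β ^ 3 + b * β ^ 2 - a * β + 1 = 0) (hv : |a - (β + β⁻¹)| ≤ 2) :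
    ∃ A : Set ℝ, MeasurableSet A ∧ volume A = 0 ∧ PP.map (Y β⁻¹) A = 1 := by
  have hβ0 : β ≠ 0 := by linarith
  set v := a - (β + β⁻¹) with hvd
  have h4 : 0 ≤ 1 - (v / 2) ^ 2 := by
    have := abs_le.mp hv
    nlinarith [this.1, this.2]
  set w : ℂ := ⟨v / 2, √(1 - (v / 2) ^ 2)⟩ with hw
  have hw1 : ‖w‖ = 1 := by
    rw [Complex.norm_eq_sqrt_sq_add_sq]
    simp only [hw]
    rw [sq_sqrt h4]
    simp
  refine singular (w := w) hβ hw1 (integral_of_eq h) (integral_of_eq (inv_eq hβ0 h))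
    (tri_of hβ hw1 (a := a) (b := b - 2) ?_ ?_)
  · simp only [hw, hvd]; ring
  · simp only [hw, hvd]
    push_cast
    field_simp
    linear_combination -h

lemma salem_eq {β : ℝ} (hβ : 1 < β) (hi : IsIntegral ℤ β) (hd : (minpoly ℚ β).natDegree = 4)
    {z : ℂ} (hz : z ∈ (minpoly ℚ β).aroots ℂ) (hz1 : ‖z‖ = 1) :
    ∃ a b : ℤ, β ^ 4 - a * β ^ 3 + b * β ^ 2 - a * β + 1 = 0 ∧ |a - (β + β⁻¹)| ≤ 2 := by
  have hβ0 : β ≠ 0 := by linarith
  have hiq : IsIntegral ℚ β := hi.tower_top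
  have hP := minpoly.isIntegrallyClosed_eq_field_fractions' ℚ hi
  set P := minpoly ℤ β with hPd
  set p := minpoly ℚ β with hpd
  have hPm : P.Monic := minpoly.monic hi
  have hPd4 : P.natDegree = 4 := by rw [← hd, hP, hPm.natDegree_map]
  have hc4 : P.coeff 4 = 1 := by rw [← hPd4]; exact hPm
  have hev : ∀ {F : Type} [Field F] [Algebra ℚ F] (x : F), aeval x p
      = x ^ 4 + P.coeff 3 * x ^ 3 + P.coeff 2 * x ^ 2 + P.coeff 1 * x + P.coeff 0 := by
    intro F _ _ x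
    rw [hP, aeval_map_algebraMap, aeval_eq_sum_range, hPd4]
    simp [sum_range_succ, hc4]
    ring
  have hirr : Irreducible p := minpoly.irreducible hiq
  have hz0 : aeval z p = 0 := (mem_aroots.mp hz).2
  have hzp : p = minpoly ℚ z := minpoly.eq_of_irreducible_of_monic hirr hz0 (minpoly.monic hiq)
  have hzne : z ≠ 0 := by rintro rfl; simp at hz1
  have e1 := hev z
  rw [hz0] at e1
  have e2 := congrArg (starRingEnd ℂ) e1
  simp only [map_zero, map_add, map_mul, map_pow, map_intCast] at e2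
  rw [← Complex.inv_eq_conj hz1] at e2
  generalize P.coeff 3 = c3 at *
  generalize P.coeff 2 = c2 at *
  generalize P.coeff 1 = c1 at *
  generalize P.coeff 0 = c0 at *
  have e3 : (0 : ℂ) = 1 + c3 * z + c2 * z ^ 2 + c1 * z ^ 3 + c0 * z ^ 4 := by
    field_simp at e2
    linear_combination e2
  set r : ℚ[X] := C ((c1 - c0 * c3 : ℤ) : ℚ) * X ^ 3 + C ((c2 - c0 * c2 : ℤ) : ℚ) * X ^ 2
    + C ((c3 - c0 * c1 : ℤ) : ℚ) * X + C ((1 - c0 * c0 : ℤ) : ℚ) with hr
  have hr0 : r = 0 := by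
    by_contra hne
    have h1 : aeval z r = 0 := by
      simp only [hr, map_add, map_mul, map_pow, aeval_X, map_intCast]
      push_cast
      linear_combination c0 * e1 - e3
    have h2 := natDegree_le_natDegree (minpoly.degree_le_of_ne_zero ℚ z hne h1)
    have h3 : r.natDegree ≤ 3 := by rw [hr]; compute_degree
    rw [← hzp] at h2
    omega
  have k3 : c1 - c0 * c3 = 0 := by
    have := congrArg (coeff · 3) hr0
    simp only [hr, coeff_add, coeff_C_mul, coeff_X_pow, coeff_X, coeff_C] at this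
    simp at this
    exact_mod_cast this
  have k2 : c2 - c0 * c2 = 0 := by
    have := congrArg (coeff · 2) hr0
    simp only [hr, coeff_add, coeff_C_mul, coeff_X_pow, coeff_X, coeff_C] at this
    simp at this
    exact_mod_cast this
  have k0 : 1 - c0 * c0 = 0 := by
    have := congrArg (coeff · 0) hr0
    simp only [hr, coeff_add, coeff_C_mul, coeff_X_pow, coeff_X, coeff_C] at this
    simp at this
    exact_mod_cast this
  have hc0 : c0 = 1 := by
    rcases Int.eq_one_or_neg_one_of_mul_eq_one (show c0 * c0 = 1 by linarith) with h | h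
    · exact h
    · exfalso
      subst h
      have h1 : p.IsRoot 1 := by
        have := hev (1 : ℚ)
        rw [coe_aeval_eq_eval] at this
        rw [IsRoot, this, show c2 = 0 by linarith, show c1 = -c3 by linarith]
        push_cast; ring
      have h2 : p.natDegree = 1 :=
        natDegree_eq_of_degree_eq_some (degree_eq_one_of_irreducible_of_root hirr h1)
      omega
  subst hc0
  obtain rfl : c1 = c3 := by linarith
  have e4 := hev β
  rw [hpd, minpoly.aeval] at e4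
  have e5 : β ^ 4 - ((-c1 : ℤ) : ℝ) * β ^ 3 + c2 * β ^ 2 - ((-c1 : ℤ) : ℝ) * β + 1 = 0 := by
    push_cast at e4 ⊢
    linear_combination -e4
  refine ⟨-c1, c2, e5, ?_⟩
  have hu : (β + β⁻¹) ^ 2 + c1 * (β + β⁻¹) + c2 - 2 = 0 := by
    push_cast at e4
    field_simp
    linear_combination -e4
  have hv : (2 * z.re) ^ 2 + c1 * (2 * z.re) + c2 - 2 = 0 := by
    have h1 : ((2 * z.re : ℝ) : ℂ) = z + z⁻¹ := by
      rw [Complex.inv_eq_conj hz1, Complex.add_conj]
    have h2 : ((2 * z.re : ℝ) : ℂ) ^ 2 + c1 * ((2 * z.re : ℝ) : ℂ) + c2 - 2 = 0 := by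
      rw [h1]
      push_cast at e1
      field_simp
      linear_combination -e1
    exact_mod_cast h2
  have hre : |z.re| ≤ 1 := hz1 ▸ Complex.abs_re_le_norm z
  have hu2 : 2 < β + β⁻¹ := by
    have : β + β⁻¹ - 2 = (β - 1) ^ 2 / β := by field_simp; ring
    have h2 : 0 < (β - 1) ^ 2 / β := div_pos (by nlinarith) (by linarith)
    linarith
  have hre' := abs_le.mp hre
  have h3 : (β + β⁻¹ - 2 * z.re) * (β + β⁻¹ + 2 * z.re + c1) = 0 := by linear_combination hu - hv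
  have h4 := (mul_eq_zero.mp h3).resolve_left (by linarith [hre'.2])
  push_cast
  rw [abs_le]
  constructor <;> linarith [hre'.1, hre'.2]

lemma not_rat_of_integral {x : ℝ} (hx : IsIntegral ℤ x) {n : ℤ} (h1 : n < x) (h2 : x < n + 1)
    (r : ℚ) : x ≠ r := by
  rintro rfl
  have h3 : IsIntegral ℤ r := (isIntegral_algebraMap_iff (algebraMap ℚ ℝ).injective).mp hx
  obtain ⟨z, rfl⟩ := IsIntegrallyClosed.isIntegral_iff.mp h3
  simp only [eq_intCast, Rat.cast_intCast] at h1 h2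
  have h4 : n < z := by exact_mod_cast h1
  have h5 : z < n + 1 := by exact_mod_cast h2
  omega

lemma exists_example : ∃ β : ℝ, 1 < β ∧ β < 2 ∧ β ^ 4 - β ^ 3 - β ^ 2 - β + 1 = 0 := by
  have := intermediate_value_Ioo (f := fun x : ℝ => x ^ 4 - x ^ 3 - x ^ 2 - x + 1)
    (show (1 : ℝ) ≤ 2 by norm_num) (by fun_prop)
    (show (0 : ℝ) ∈ Set.Ioo _ _ by constructor <;> norm_num)
  obtain ⟨β, ⟨h1, h2⟩, h3⟩ := this
  exact ⟨β, h1, h2, h3⟩

lemma example_facts {β : ℝ} (h1 : 1 < β) (h2 : β < 2) (h : β ^ 4 - β ^ 3 - β ^ 2 - β + 1 = 0) :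
    (∃ A : Set ℝ, MeasurableSet A ∧ volume A = 0 ∧ PP.map (Y β⁻¹) A = 1) ∧
      ¬ ∀ z ∈ (minpoly ℚ β).aroots ℂ, z ≠ β → ‖z‖ < 1 := by
  have hβ0 : β ≠ 0 := by linarith
  have h' : β ^ 4 - ((1 : ℤ) : ℝ) * β ^ 3 + ((-1 : ℤ) : ℝ) * β ^ 2 - ((1 : ℤ) : ℝ) * β + 1 = 0 := by
    push_cast; linear_combination h
  have hu2 : 2 < β + β⁻¹ := by
    have : β + β⁻¹ - 2 = (β - 1) ^ 2 / β := by field_simp; ring
    have h2 : 0 < (β - 1) ^ 2 / β := div_pos (by nlinarith) (by linarith)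
    linarith
  have hu3 : β + β⁻¹ < 3 := by linarith [l_lt h1]
  refine ⟨quartic h1 h' (by push_cast; rw [abs_le]; constructor <;> linarith), fun hP => ?_⟩
  have hi := integral_of_eq h'
  have hi' := integral_of_eq (inv_eq hβ0 h')
  have hiq : IsIntegral ℚ β := hi.tower_top
  set p := minpoly ℚ β with hp
  have hdvd : p ∣ X ^ 4 - X ^ 3 - X ^ 2 - X + 1 := minpoly.dvd ℚ β (by simpa using h)
  have hu : (β + β⁻¹) ^ 2 - (β + β⁻¹) - 3 = 0 := by
    field_simp
    linear_combination h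
  have hroots : ∀ z ∈ p.aroots ℂ, z = β ∨ z = (β⁻¹ : ℝ) := by
    intro z hz
    by_cases hzβ : z = β
    · exact Or.inl hzβ
    right
    have hz1 := hP z hz hzβ
    have hz0 : z ^ 4 - z ^ 3 - z ^ 2 - z + 1 = 0 := by
      have := aeval_eq_zero_of_dvd_aeval_eq_zero hdvd (mem_aroots.mp hz).2
      simpa using this
    set v : ℝ := 1 - (β + β⁻¹) with hv
    have hl : (β : ℂ) * (β⁻¹ : ℝ) = 1 := by
      rw [← Complex.ofReal_mul, mul_inv_cancel₀ hβ0]; simp
    have huc : ((β : ℂ) + (β⁻¹ : ℝ)) ^ 2 - ((β : ℂ) + (β⁻¹ : ℝ)) - 3 = 0 := by exact_mod_cast hu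
    have hvc : (v : ℂ) = 1 - ((β : ℂ) + (β⁻¹ : ℝ)) := by rw [hv]; push_cast; ring
    have hf : (z - β) * (z - (β⁻¹ : ℝ)) * (z ^ 2 - v * z + 1) = 0 := by
      rw [hvc]
      linear_combination hz0 + (z ^ 2 - (1 - ((β : ℂ) + (β⁻¹ : ℝ))) * z + 1) * hl - z ^ 2 * huc
    rcases mul_eq_zero.mp hf with h3 | h3
    · exact sub_eq_zero.mp ((mul_eq_zero.mp h3).resolve_left (sub_ne_zero.mpr hzβ))
    · exfalso
      have hre := congrArg Complex.re h3
      have him := congrArg Complex.im h3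
      simp [pow_two] at hre him
      have hn : z.re ^ 2 + z.im ^ 2 < 1 := by
        rw [Complex.norm_eq_sqrt_sq_add_sq, sqrt_lt' one_pos] at hz1
        linarith
      have h4 : z.im * (2 * z.re - v) = 0 := by linarith
      rcases mul_eq_zero.mp h4 with h5 | h5
      · rw [h5] at hre
        nlinarith [sq_nonneg (2 * z.re - v)]
      · have : v = 2 * z.re := by linarith
        rw [this] at hre
        nlinarith
  have hm : p.Monic := minpoly.monic hiq
  have hnd : (p.aroots ℂ).Nodup := nodup_roots (minpoly.irreducible hiq).separable.map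
  have hsum : (p.aroots ℂ).sum = ((-p.nextCoeff : ℚ) : ℂ) := by
    have := (IsAlgClosed.splits (p.map (algebraMap ℚ ℂ))).nextCoeff_eq_neg_sum_roots_of_monic
      (hm.map _)
    rw [nextCoeff_map (algebraMap ℚ ℂ).injective] at this
    rw [aroots_def]
    push_cast
    rw [← neg_neg (Multiset.sum _), ← this]
    simp
  have hβr : (β : ℂ) ∈ p.aroots ℂ := by
    rw [mem_aroots]
    refine ⟨hm.ne_zero, ?_⟩
    have := aeval_algebraMap_apply ℂ β p
    rw [hp, minpoly.aeval, map_zero] at this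
    exact this
  have hne : (β : ℂ) ≠ (β⁻¹ : ℝ) := by
    intro h3
    have : β = β⁻¹ := by exact_mod_cast h3
    linarith [l_lt h1]
  by_cases h3 : ((β⁻¹ : ℝ) : ℂ) ∈ p.aroots ℂ
  · have e : p.aroots ℂ = {(β : ℂ), ((β⁻¹ : ℝ) : ℂ)} := by
      refine (Multiset.Nodup.ext hnd (by simpa using hne)).mpr fun z => ⟨fun hz => ?_, fun hz => ?_⟩
      · simpa using hroots z hz
      · rcases (by simpa using hz : z = β ∨ z = (β : ℂ)⁻¹) with rfl | rfl
        · exact hβr
        · simpa using h3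
    rw [e] at hsum
    refine not_rat_of_integral (hi.add hi') (n := 2) (by simpa using hu2) (by norm_num; linarith)
      (-p.nextCoeff) ?_
    have : ((β + β⁻¹ : ℝ) : ℂ) = (((-p.nextCoeff : ℚ) : ℝ) : ℂ) := by
      rw [Complex.ofReal_ratCast, ← hsum]; simp
    exact_mod_cast this
  · have e : p.aroots ℂ = {(β : ℂ)} := by
      refine (Multiset.Nodup.ext hnd (by simp)).mpr fun z => ⟨fun hz => ?_, fun hz => ?_⟩
      · rcases hroots z hz with rfl | rfl
        · simp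
        · exact absurd hz h3
      · rw [Multiset.mem_singleton.mp hz]; exact hβr
    rw [e] at hsum
    refine not_rat_of_integral hi (n := 1) (by simpa using h1) (by norm_num; linarith)
      (-p.nextCoeff) ?_
    have : ((β : ℝ) : ℂ) = (((-p.nextCoeff : ℚ) : ℝ) : ℂ) := by
      rw [Complex.ofReal_ratCast, ← hsum]; simp
    exact_mod_cast this

end Vale.Agent.P105
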