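import Mathlib

namespace Vale.Agent.P105

open Real Finset

/-- the factor `|cos (π x)|` -/
noncomputable def g (x : ℝ) : ℝ := |cos (π * x)|

lemma g_nonneg (x : ℝ) : 0 ≤ g x := abs_nonneg _

lemma g_le_one (x : ℝ) : g x ≤ 1 := abs_cos_le_one _

lemma g_add_int (x : ℝ) (n : ℤ) : g (x + n) = g x := by
  unfold g
  rw [mul_add, mul_comm π (n : ℝ), cos_add_int_mul_pi, abs_mul]
  simp

lemma g_neg (x : ℝ) : g (-x) = g x := by
  unfold g; rw [mul_neg, cos_neg]

lemma g_lip (x y : ℝ) : |g x - g y| ≤ 4 * |x - y| := by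
  unfold g
  refine (abs_abs_sub_abs_le_abs_sub _ _).trans ((abs_cos_sub_cos_le _ _).trans ?_)
  rw [← mul_sub, abs_mul, abs_of_pos pi_pos]
  exact mul_le_mul_of_nonneg_right pi_le_four (abs_nonneg _)

lemma g_near {x y e : ℝ} {n : ℤ} (h : |x - n - y| ≤ e) : |g x - g y| ≤ 4 * e := by
  have h1 := g_lip (x - n) y
  have h2 : g (x - n) = g x := by
    have := g_add_int (x - n) n
    rw [sub_add_cancel] at this
    exact this.symm
  rw [h2] at h1
  linarith

lemma g_near_neg {x y e : ℝ} {n : ℤ} (h : |x - n + y| ≤ e) : |g x - g y| ≤ 4 * e := by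
  have := g_near (x := x) (y := -y) (n := n) (e := e) (by simpa using h)
  rwa [g_neg] at this

lemma g_small {x u : ℝ} {n : ℤ} (h : |x - n| ≤ u) (hu : u ≤ 1 / 4) :
    1 / 2 ≤ g x ∧ exp (-(10 * u ^ 2)) ≤ g x := by
  have h2 : g (x - n) = g x := by
    have := g_add_int (x - n) n
    rw [sub_add_cancel] at this
    exact this.symm
  rw [← h2]
  set y := x - n
  have h0 : 0 ≤ u := (abs_nonneg _).trans h
  have hy : y ^ 2 ≤ u ^ 2 := by rw [← sq_abs]; exact pow_le_pow_left₀ (abs_nonneg _) h 2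
  have hpi : π ^ 2 ≤ 10 := by nlinarith [pi_lt_d2, pi_pos]
  have h3 : 1 - 5 * u ^ 2 ≤ g y := by
    refine le_trans ?_ (le_abs_self _)
    have := one_sub_sq_div_two_le_cos (x := π * y)
    have h4 : (π * y) ^ 2 ≤ 10 * u ^ 2 := by
      rw [mul_pow]; exact mul_le_mul hpi hy (sq_nonneg _) (by norm_num)
    linarith
  have hu2 : u ^ 2 ≤ 1 / 16 := by nlinarith
  refine ⟨by linarith, le_trans ?_ h3⟩
  have h5 := add_one_le_exp (10 * u ^ 2)
  rw [exp_neg, inv_le_comm₀ (exp_pos _) (by linarith)]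
  refine le_trans ?_ h5
  rw [inv_le_iff_one_le_mul₀ (by linarith)]
  nlinarith [sq_nonneg u]

lemma g_pos_of_integral {x : ℝ} (hx : IsIntegral ℤ x) : 0 < g x := by
  refine abs_pos.mpr fun h => ?_
  obtain ⟨k, hk⟩ := cos_eq_zero_iff.mp h
  have h1 : x = ((2 * k + 1 : ℚ) / 2 : ℚ) := by
    have : π * x = π * ((2 * k + 1) / 2) := by rw [hk]; ring
    have := mul_left_cancel₀ pi_ne_zero this
    rw [this]; push_cast; ring
  rw [h1] at hx
  have h2 : IsIntegral ℤ ((2 * k + 1 : ℚ) / 2 : ℚ) :=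
    (isIntegral_algebraMap_iff (algebraMap ℚ ℝ).injective).mp hx
  obtain ⟨z, hz⟩ := IsIntegrallyClosed.isIntegral_iff.mp h2
  have h3 : (2 * z : ℚ) = 2 * k + 1 := by
    have : (z : ℚ) = (2 * k + 1 : ℚ) / 2 := hz
    rw [this]; ring
  have h4 : 2 * z = 2 * k + 1 := by exact_mod_cast h3
  omega

lemma prod_near {n : ℕ} {a b : ℕ → ℝ} {c e : ℝ} (hc : 0 < c) (he : 0 ≤ e)
    (ha : ∀ i < n, c ≤ a i) (hb0 : ∀ i < n, 0 ≤ b i) (hab : ∀ i < n, |b i - a i| ≤ e)
    (hs : n * e ≤ c / 2) :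
    (∏ i ∈ range n, a i) / 2 ≤ ∏ i ∈ range n, b i ∧
      ∏ i ∈ range n, b i ≤ 2 * ∏ i ∈ range n, a i := by
  have hP : 0 ≤ ∏ i ∈ range n, a i := prod_nonneg fun i hi => hc.le.trans (ha i (mem_range.mp hi))
  have hd : 0 ≤ e / c := by positivity
  have hnd : n * (e / c) ≤ 1 / 2 := by
    rw [← mul_div_assoc, div_le_iff₀ hc]; linarith
  have key : ∀ i < n, e ≤ a i * (e / c) := fun i hi => by
    have := mul_le_mul_of_nonneg_right (ha i hi) hd
    rwa [mul_div_cancel₀ _ hc.ne'] at this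
  rcases Nat.eq_zero_or_pos n with rfl | hn
  · norm_num
  have hd1 : e / c ≤ 1 / 2 := by
    have : (1 : ℝ) ≤ n := by exact_mod_cast hn
    nlinarith
  constructor
  · have h1 : ∏ i ∈ range n, a i * (1 - e / c) ≤ ∏ i ∈ range n, b i := by
      refine prod_le_prod (fun i hi => mul_nonneg (hc.le.trans (ha i (mem_range.mp hi)))
        (by linarith)) fun i hi => ?_
      have := (abs_le.mp (hab i (mem_range.mp hi))).1
      have := key i (mem_range.mp hi)
      nlinarith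
    rw [prod_mul_distrib, prod_const, card_range] at h1
    have h2 := one_add_mul_le_pow (a := -(e / c)) (by linarith) n
    rw [← sub_eq_add_neg] at h2
    nlinarith
  · have h1 : ∏ i ∈ range n, b i ≤ ∏ i ∈ range n, a i * (1 + e / c) := by
      refine prod_le_prod (fun i hi => hb0 i (mem_range.mp hi)) fun i hi => ?_
      have := (abs_le.mp (hab i (mem_range.mp hi))).2
      have := key i (mem_range.mp hi)
      nlinarith
    rw [prod_mul_distrib, prod_const, card_range] at h1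
    have h2 : (1 + e / c) ^ n ≤ 2 := by
      calc (1 + e / c) ^ n ≤ exp (e / c) ^ n :=
            pow_le_pow_left₀ (by linarith) (by linarith [add_one_le_exp (e / c)]) n
        _ = exp (n * (e / c)) := (exp_nat_mul _ _).symm
        _ ≤ exp (1 / 2) := exp_le_exp.mpr hnd
        _ ≤ 2 := by
          have h3 : exp (1 / 2) ^ 2 = exp 1 := by rw [← exp_nat_mul]; norm_num
          nlinarith [exp_one_lt_d9, exp_pos (1 / 2)]
    nlinarith

lemma geom_le {l : ℝ} (h0 : 0 ≤ l) (n : ℕ) :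
    (1 - l) / 16 * ∑ i ∈ range n, l ^ i ≤ 1 / 16 := by
  have := mul_neg_geom_sum l n
  have h2 : 0 ≤ l ^ n := by positivity
  linarith

lemma prod_gap {l r : ℝ} (h0 : 0 ≤ l) (h1 : l < 1) (hr0 : 0 ≤ r) (hr : r ≤ 1 / 16) {n : ℕ}
    (hn : n * r ^ 2 ≤ 1) {x : ℕ → ℝ}
    (hx : ∀ i < n, ∃ z : ℤ, |x i - z| ≤ (1 - l) / 16 * l ^ i + (1 - l) / 16 * l ^ (n - 1 - i) + 2 * r) :
    exp (-130) ≤ ∏ i ∈ range n, g (x i) := by
  set η := (1 - l) / 16 with hη
  have hη0 : 0 ≤ η := by rw [hη]; linarith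
  have hη1 : η ≤ 1 / 16 := by rw [hη]; linarith
  have hb : ∀ j : ℕ, 0 ≤ η * l ^ j ∧ η * l ^ j ≤ 1 / 16 := fun j =>
    ⟨by positivity, (mul_le_of_le_one_right hη0 (pow_le_one₀ h0 h1.le)).trans hη1⟩
  have h2 : ∏ i ∈ range n, exp (-(30 * (η * l ^ i) + 30 * (η * l ^ (n - 1 - i)) + 120 * r ^ 2))
      ≤ ∏ i ∈ range n, g (x i) := by
    refine prod_le_prod (fun i _ => (exp_pos _).le) fun i hi => ?_
    obtain ⟨z, hz⟩ := hx i (mem_range.mp hi)
    have ha := hb i
    have ha' := hb (n - 1 - i)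
    refine le_trans (exp_le_exp.mpr ?_) (g_small hz (by linarith [ha.2, ha'.2])).2
    generalize η * l ^ i = p at *
    generalize η * l ^ (n - 1 - i) = q at *
    nlinarith [sq_nonneg (p - q), sq_nonneg (p - 2 * r), sq_nonneg (q - 2 * r), ha.1, ha.2,
      ha'.1, ha'.2]
  refine le_trans ?_ h2
  rw [← exp_sum, exp_le_exp, sum_neg_distrib, sum_add_distrib, sum_add_distrib,
    sum_range_reflect (fun i => 30 * (η * l ^ i)) n, ← mul_sum,
    ← mul_sum, sum_const, card_range, nsmul_eq_mul]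
  have := geom_le h0 n
  rw [← hη] at this
  nlinarith

end Vale.Agent.P105
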