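import Vale.Agent.P105.Ind

namespace Vale.Agent.P105

open Real Finset Filter

variable {β : ℝ} {w : ℂ} {S : St}

lemma Inv.W_pos {c x : ℝ} (hβ : 1 < β) (h : Inv β w c S x) : 0 < W β S := by
  have hc0 : 0 < c := by linarith [h.x_c, h.x_pos]
  exact prod_pos fun i hi => lt_of_lt_of_le hc0 ((h.small hβ).2 i (mem_range.mp hi))

lemma iterate {c x : ℝ} (hβ : 1 < β) (hw : ‖w‖ = 1) (hi : IsIntegral ℤ β)
    (hi' : IsIntegral ℤ β⁻¹) (hc : c ≤ 1 / 4) (h : Inv β w c S x) (j : ℕ) :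
    ∃ (T : St) (y : ℝ), Inv β w c T y ∧ log y ≤ (11 / 5) ^ j * log x ∧
      2 ^ j * (log (W β S) - 132) ≤ log (W β T) - 132 := by
  induction j with
  | zero => exact ⟨S, x, h, by simp, by simp⟩
  | succ j ih =>
    obtain ⟨T, y, hT, h1, h2⟩ := ih
    obtain ⟨U, z, hU, h3, h4⟩ := hT.step hβ hw hi hi' hc
    refine ⟨U, z, hU, ?_, ?_⟩
    · have := log_le_log (pow_pos hU.x_pos 5) h3
      rw [log_pow, log_pow] at this
      push_cast at this
      rw [pow_succ]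
      nlinarith
    · have hp := hT.W_pos hβ
      have := log_le_log (by positivity) h4
      rw [log_mul (by positivity) (by positivity), log_exp, log_pow] at this
      push_cast at this
      rw [pow_succ]
      nlinarith

lemma growth {P Q E : ℝ} (hQ : 0 < Q) : ∃ j : ℕ, E + P * 2 ^ j ≤ Q * (11 / 5) ^ j := by
  have h := tendsto_pow_atTop_atTop_of_one_lt (show (1 : ℝ) < 11 / 10 by norm_num)
  obtain ⟨j, hj⟩ := (h.eventually (eventually_ge_atTop ((|E| + |P|) / Q))).exists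
  refine ⟨j, ?_⟩
  rw [div_le_iff₀ hQ] at hj
  have h1 : (1 : ℝ) ≤ 2 ^ j := one_le_pow₀ (by norm_num)
  have h2 : (11 / 5 : ℝ) ^ j = (11 / 10) ^ j * 2 ^ j := by rw [← mul_pow]; norm_num
  rw [h2]
  have h3 := mul_le_mul_of_nonneg_right hj (show (0 : ℝ) ≤ 2 ^ j by positivity)
  have h4 := mul_le_mul_of_nonneg_right (le_abs_self P) (show (0 : ℝ) ≤ 2 ^ j by positivity)
  have h5 := mul_le_mul_of_nonneg_left h1 (abs_nonneg E)
  nlinarith [le_abs_self E]

lemma abs_prod_cos (a l : ℝ) (n : ℕ) :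
    |∏ k ∈ range n, cos (π * a * l ^ k)| = ∏ k ∈ range n, g (a * l ^ k) := by
  rw [abs_prod]
  refine prod_congr rfl fun k _ => ?_
  unfold g
  rw [mul_assoc]

theorem det (hβ : 1 < β) (hw : ‖w‖ = 1) (hi : IsIntegral ℤ β) (hi' : IsIntegral ℤ β⁻¹)
    (htri : ∀ k : ℤ, ∃ z : ℤ, β ^ k + β ^ (-k) + 2 * (w ^ k).re = z) {ε : ℝ} (hε : 0 < ε) :
    ∃ (K : ℕ) (ξ : ℕ → ℝ) (γ : ℝ), 0 < γ ∧ 1 ≤ ε * K * γ ^ 2 ∧
      (∀ i < K, ∀ᶠ n in atTop, γ ≤ |∏ k ∈ range n, cos (ξ i * β⁻¹ ^ k)|) ∧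
      ∀ i < K, ∀ j < K, i < j → K ≤ ξ j - ξ i ∧
        ∀ᶠ n in atTop, |∏ k ∈ range n, cos ((ξ j - ξ i) * β⁻¹ ^ k)| ≤ 4 * exp 520 * γ ^ 2 := by
  have hl := l_pos hβ
  obtain ⟨c, S0, x0, hc, h0⟩ := exists_base hβ hw hi hi' htri
  have hQ : 0 < -4 * log x0 := by
    have := log_neg h0.x_pos (by linarith [h0.x_le])
    linarith
  obtain ⟨j, hj⟩ := growth (P := -2 * (log (W β S0) - 132)) (E := 520 - log ε) hQ
  obtain ⟨S, x, h, h1, h2⟩ := iterate hβ hw hi hi' hc h0 j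
  have hx := h.x_pos
  have hx4 := pow4_le hx h.x_le
  have hW := h.W_pos hβ
  have hc0 : 0 < c := by linarith [h.x_c]
  have hx40 : 0 < x ^ 4 := by positivity
  set K := ⌈1 / x ^ 4⌉₊ with hK
  have hK1 : 1 ≤ K * x ^ 4 := by
    have := Nat.le_ceil (1 / x ^ 4)
    rwa [div_le_iff₀ hx40] at this
  have hK2 : K * x ^ 4 ≤ 2 := by
    have := (Nat.ceil_lt_add_one (show 0 ≤ 1 / x ^ 4 by positivity)).le
    have h2 := mul_le_mul_of_nonneg_right this hx40.le
    rw [add_mul, div_mul_cancel₀ _ hx40.ne'] at h2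
    linarith [hx4.2]
  have hn := h.ok.n_pos
  refine ⟨K, fun i => π * (S.t * β ^ (2 * S.n * (K + i))), exp (-260) * W β S, by positivity, ?_,
    fun i hiK => ?_, fun i hiK j hjK hij => ⟨?_, ?_⟩⟩
  · have h3 : x ^ 4 ≤ ε * (exp (-260) * W β S) ^ 2 := by
      rw [← log_le_log_iff hx40 (by positivity), log_mul hε.ne' (by positivity), log_pow, log_pow,
        log_mul (by positivity) hW.ne', log_exp]
      push_cast
      nlinarith
    calc 1 ≤ K * x ^ 4 := hK1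
      _ ≤ K * (ε * (exp (-260) * W β S) ^ 2) := by gcongr
      _ = _ := by ring
  · filter_upwards [eventually_ge_atTop (2 * S.n * (K + i) + 1)] with n hn'
    rw [abs_prod_cos]
    refine (h.ok.tail hβ hw h.u_le (by linarith [hx4.2]) (by nlinarith) hn').2 ?_
    have h3 : 2 * S.n * (K + i) + 1 ≤ 4 * S.n * K := by nlinarith
    have h4 : ((2 * S.n * (K + i) + 1 : ℕ) : ℝ) ≤ 4 * S.n * K := by exact_mod_cast h3
    calc _ ≤ (4 * S.n * K) * (x ^ 4) ^ 2 := by gcongr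
      _ = 4 * x * (S.n * x ^ 3) * (K * x ^ 4) := by ring
      _ ≤ 4 * x * 1 * 2 := by gcongr; exact h.n_le
      _ ≤ 1 := by linarith [h.x_le]
  · obtain ⟨d, rfl⟩ := Nat.exists_eq_add_of_lt hij
    have hb : 2 ≤ β ^ S.n := by
      have h3 := l_mul hβ S.n
      have h4 := h.ok.big
      have h5 : 0 < β ^ S.n := by positivity
      nlinarith
    have ht : 1 ≤ S.t * β ^ S.n := by
      have h3 := l_mul hβ S.n
      have h5 : 0 < β ^ S.n := by positivity
      nlinarith [h.ok.t_lo]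
    have hK0 : 1 ≤ K := by omega
    have h3 : (K : ℝ) ≤ S.t * β ^ (2 * S.n * (K + i)) := by
      obtain ⟨e, he⟩ : ∃ e, 2 * S.n * (K + i) = S.n + (S.n * K + e) :=
        ⟨2 * S.n * (K + i) - (S.n + S.n * K), by
          have : S.n + S.n * K ≤ 2 * S.n * (K + i) := by nlinarith
          omega⟩
      rw [he, pow_add, pow_add, pow_mul, ← mul_assoc]
      have h6 : (K : ℝ) ≤ 2 ^ K := by exact_mod_cast Nat.lt_two_pow_self.le
      have h7 : (2 : ℝ) ^ K ≤ (β ^ S.n) ^ K := pow_le_pow_left₀ (by norm_num) hb K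
      have h8 : 1 ≤ β ^ e := one_le_pow₀ hβ.le
      calc (K : ℝ) = 1 * (K * 1) := by ring
        _ ≤ _ := by gcongr; exact h6.trans h7
    have h4 : 2 ≤ β ^ (2 * S.n * (d + 1)) :=
      hb.trans (pow_le_pow_right₀ hβ.le (by nlinarith))
    have e : 2 * S.n * (K + (i + d + 1)) = 2 * S.n * (K + i) + 2 * S.n * (d + 1) := by ring
    simp only
    rw [e, pow_add β (2 * S.n * (K + i)), ← mul_assoc S.t]
    have h5 : (0 : ℝ) ≤ K := Nat.cast_nonneg _
    generalize S.t * β ^ (2 * S.n * (K + i)) = A at *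
    generalize β ^ (2 * S.n * (d + 1)) = B at *
    have h6 : A ≤ A * B - A := by nlinarith
    nlinarith [pi_gt_three]
  · obtain ⟨d, rfl⟩ := Nat.exists_eq_add_of_lt hij
    have hm : S.n + S.n ≤ 2 * S.n * (d + 1) := by nlinarith
    have e : 2 * S.n * (K + (i + d + 1)) = 2 * S.n * (d + 1) + 2 * S.n * (K + i) := by ring
    filter_upwards [eventually_ge_atTop (2 * S.n * (K + (i + d + 1)) + 1)] with n hn'
    rw [e] at hn'
    rw [e, ← mul_sub, ← step_t2 (w := w) hβ, abs_prod_cos]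
    have hT := h.ok.step hβ hw hi hi' (show S.n ≤ 2 * S.n * (d + 1) by omega)
    have hu : ‖(step β w S (2 * S.n * (d + 1))).u‖ ≤ 1 / 16 := by
      rw [norm_step hw]
      have h3 : ‖w ^ (2 * S.n * (d + 1)) - 1‖ ≤ 2 := by
        refine (norm_sub_le _ _).trans ?_
        rw [norm_pow, hw]; norm_num
      calc _ ≤ x ^ 4 * 2 := by gcongr; exact h.u_le
        _ ≤ _ := by linarith [hx4.2]
    refine (hT.tail hβ hw hu le_rfl ?_ hn').1.trans ?_
    · have : S.n ≤ 2 * S.n * (K + i) := by nlinarith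
      simp only [step]
      omega
    · refine (h.ok.step_W hβ hw h.u_le (by linarith [hx4.2]) hm hc0 (h.small hβ).2
        (h.small hβ).1).1.trans (le_of_eq ?_)
      have : exp 520 * exp (-260) ^ 2 = 1 := by
        rw [← exp_nat_mul, ← exp_add]; norm_num
      linear_combination (-4 * W β S ^ 2) * this

end Vale.Agent.P105
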