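import Vale.Agent.P105.St

namespace Vale.Agent.P105

open Real Finset Filter

variable {β : ℝ} {w : ℂ} {S : St}

lemma dirichlet (hw : ‖w‖ = 1) {M : ℕ} (hM : 0 < M) :
    ∃ q : ℕ, 0 < q ∧ q ≤ M ∧ ‖w ^ q - 1‖ ≤ 7 / (M + 1) := by
  obtain ⟨q, hq0, hqM, hq⟩ := Real.exists_nat_abs_mul_sub_round_le (Complex.arg w / (2 * π)) hM
  refine ⟨q, hq0, hqM, ?_⟩
  set z := round ((q : ℝ) * (Complex.arg w / (2 * π)))
  have h1 : w = Complex.exp (Complex.arg w * Complex.I) := by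
    have := Complex.norm_mul_exp_arg_mul_I w
    rw [hw] at this
    simpa using this.symm
  have h2 : w ^ q = Complex.exp (Complex.I * ((q * Complex.arg w - 2 * π * z : ℝ) : ℂ)) := by
    conv_lhs => rw [h1, ← Complex.exp_nat_mul]
    push_cast
    rw [show Complex.I * (q * (Complex.arg w : ℂ) - 2 * π * z)
      = q * (Complex.arg w * Complex.I) - z * (2 * π * Complex.I) by ring, Complex.exp_sub,
      Complex.exp_int_mul_two_pi_mul_I, div_one]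
  rw [h2]
  refine Real.norm_exp_I_mul_ofReal_sub_one_le.trans ?_
  have h3 : q * Complex.arg w - 2 * π * z = 2 * π * (q * (Complex.arg w / (2 * π)) - z) := by
    field_simp
  rw [Real.norm_eq_abs, h3, abs_mul, abs_of_pos (by positivity : 0 < 2 * π)]
  calc 2 * π * |q * (Complex.arg w / (2 * π)) - z| ≤ 7 * (1 / (M + 1)) :=
        mul_le_mul (by linarith [pi_lt_d2]) hq (abs_nonneg _) (by norm_num)
    _ = _ := by ring

lemma norm_pow_mul (hw : ‖w‖ = 1) (q n : ℕ) : ‖w ^ (n * q) - 1‖ ≤ n * ‖w ^ q - 1‖ := by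
  induction n with
  | zero => simp
  | succ n ih =>
    have : w ^ ((n + 1) * q) - 1 = w ^ q * (w ^ (n * q) - 1) + (w ^ q - 1) := by ring
    rw [this]
    refine (norm_add_le _ _).trans ?_
    rw [norm_mul, norm_pow, hw, one_pow, one_mul]
    push_cast
    linarith

lemma norm_step (hw : ‖w‖ = 1) (S : St) (m : ℕ) :
    ‖(step β w S m).u‖ = ‖S.u‖ * ‖w ^ m - 1‖ := by
  have hw0 : w ≠ 0 := by rintro rfl; simp at hw
  simp only [step]
  have : 1 - w⁻¹ ^ m = (w ^ m - 1) * w⁻¹ ^ m := by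
    rw [inv_pow]; field_simp
  rw [this, norm_mul, norm_mul, norm_pow, norm_inv, hw]
  simp

/-- the inductive invariant -/
structure Inv (β : ℝ) (w : ℂ) (c : ℝ) (S : St) (x : ℝ) : Prop where
  ok : Ok β w S
  x_pos : 0 < x
  x_le : x ≤ 1 / 10 ^ 6
  x_c : x ≤ c / 64
  u_le : ‖S.u‖ ≤ x ^ 4
  n_le : S.n * x ^ 3 ≤ 1
  n_big : ∀ m : ℕ, S.n ≤ m → m * β⁻¹ ^ m ≤ c / 64
  cmin : ∀ i < S.n, c + 8 * (β⁻¹ ^ S.n + 2 * x ^ 4) ≤ g (S.t * β ^ i)

lemma Ok.n_pos (h : Ok β w S) : 1 ≤ S.n := by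
  by_contra h0
  have h1 := h.big
  rw [show S.n = 0 by omega] at h1
  norm_num at h1

lemma pow4_le {x : ℝ} (h0 : 0 < x) (h1 : x ≤ 1 / 10 ^ 6) : x ^ 4 ≤ x ∧ x ^ 4 ≤ 1 / 32 := by
  have h2 : x ^ 3 ≤ 1 := pow_le_one₀ h0.le (by linarith)
  have h3 : x ^ 4 ≤ x := by nlinarith
  exact ⟨h3, by linarith⟩

lemma Inv.small {c x : ℝ} (hβ : 1 < β) (h : Inv β w c S x) :
    S.n * (4 * (β⁻¹ ^ S.n + 2 * x ^ 4)) ≤ c / 2 ∧ ∀ i < S.n, c ≤ g (S.t * β ^ i) := by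
  have h1 := h.n_big S.n le_rfl
  have h2 : S.n * x ^ 4 ≤ x := by nlinarith [h.n_le, h.x_pos]
  have hl := l_pos hβ
  have hx := h.x_pos
  refine ⟨by nlinarith [h.x_c], fun i hi => le_trans ?_ (h.cmin i hi)⟩
  have : 0 ≤ β⁻¹ ^ S.n + 2 * x ^ 4 := by positivity
  linarith

lemma Inv.step_aux {c x : ℝ} (hβ : 1 < β) (hw : ‖w‖ = 1) (hi : IsIntegral ℤ β)
    (hi' : IsIntegral ℤ β⁻¹) (hc : c ≤ 1 / 4) (h : Inv β w c S x) {m : ℕ} {y : ℝ}
    (hm : S.n + S.n ≤ m) (hy0 : 0 < y) (hy : y ≤ x / 2) (hu : x ^ 4 * ‖w ^ m - 1‖ ≤ y ^ 4)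
    (hn : (S.n + m : ℕ) * y ^ 3 ≤ 1) : Inv β w c (step β w S m) y := by
  have hx := h.x_pos
  have hl := l_pos hβ
  have hx4 := pow4_le hx h.x_le
  have hy4 := pow4_le hy0 (by linarith [h.x_le])
  refine ⟨h.ok.step hβ hw hi hi' (by omega), hy0, by linarith [h.x_le], by linarith [h.x_c], ?_, hn,
    fun k hk => h.n_big k (le_trans (Nat.le_add_right _ _) hk), ?_⟩
  · rw [norm_step hw]
    exact (mul_le_mul_of_nonneg_right h.u_le (norm_nonneg _)).trans hu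
  · refine h.ok.step_c hβ hw h.u_le (by linarith [hx4.2]) hm h.cmin ?_ ?_
    · have h1 := h.n_big (S.n + m) (Nat.le_add_right _ _)
      have h2 : (1 : ℝ) ≤ (S.n + m : ℕ) := by exact_mod_cast le_trans h.ok.n_pos (Nat.le_add_right _ _)
      have h3 : β⁻¹ ^ (S.n + m) ≤ c / 64 := le_trans (le_mul_of_one_le_left (by positivity) h2) h1
      simp only [step]
      linarith [hy4.1, h.x_c]
    · have h1 : β⁻¹ ^ (S.n + m) ≤ β⁻¹ ^ S.n / 2 := by
        refine (l_anti hβ (show S.n + S.n ≤ S.n + m by omega)).trans ?_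
        rw [pow_add]
        have := mul_le_mul_of_nonneg_left h.ok.big (pow_pos hl S.n).le
        linarith
      have h2 : y ^ 4 ≤ x ^ 4 / 2 := by
        have := pow_le_pow_left₀ hy0.le hy 4
        have h3 : 0 < x ^ 4 := by positivity
        rw [div_pow] at this
        linarith
      simp only [step]
      linarith

lemma bad_root {x : ℝ} (h0 : 0 < x) (h1 : x ≤ 1 / 10 ^ 6) :
    ∃ y : ℝ, 0 < y ∧ y ^ 4 = 14 * x ^ 9 ∧ y ≤ x ^ 2 / 2 ∧ y ^ 5 ≤ x ^ 11 := by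
  have hy4 : √(√(14 * x ^ 9)) ^ 4 = 14 * x ^ 9 := by
    rw [show (4 : ℕ) = 2 * 2 by norm_num, pow_mul, sq_sqrt (sqrt_nonneg _), sq_sqrt (by positivity)]
  refine ⟨√(√(14 * x ^ 9)), by positivity, hy4, ?_, ?_⟩
  · apply le_of_pow_le_pow_left₀ (n := 4) (by norm_num) (by positivity)
    rw [hy4]
    have : 0 < x ^ 8 := by positivity
    have e1 : 14 * x ^ 9 = x ^ 8 * (14 * x) := by ring
    have e2 : (x ^ 2 / 2) ^ 4 = x ^ 8 * (1 / 16) := by ring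
    rw [e1, e2]
    exact mul_le_mul_of_nonneg_left (by linarith) this.le
  · apply le_of_pow_le_pow_left₀ (n := 4) (by norm_num) (by positivity)
    rw [← pow_mul, mul_comm 5 4, pow_mul, hy4]
    have : 0 < x ^ 44 := by positivity
    have e1 : (14 * x ^ 9) ^ 5 = x ^ 44 * (14 ^ 5 * x) := by ring
    have e2 : (x ^ 11) ^ 4 = x ^ 44 * 1 := by ring
    rw [e1, e2]
    exact mul_le_mul_of_nonneg_left (by linarith) this.le

lemma Inv.step {c x : ℝ} (hβ : 1 < β) (hw : ‖w‖ = 1) (hi : IsIntegral ℤ β)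
    (hi' : IsIntegral ℤ β⁻¹) (hc : c ≤ 1 / 4) (h : Inv β w c S x) :
    ∃ (T : St) (y : ℝ), Inv β w c T y ∧ y ^ 5 ≤ x ^ 11 ∧ exp (-132) * W β S ^ 2 ≤ W β T := by
  have hx := h.x_pos
  have hxl := h.x_le
  have hx4 := pow4_le hx h.x_le
  have hc0 : 0 < c := by linarith [h.x_c]
  have hx8 : 0 < x ^ 8 := by positivity
  have hx81 : x ^ 8 ≤ 1 := pow_le_one₀ hx.le (by linarith)
  set M := ⌊1 / x ^ 8⌋₊ with hM
  have hM0 : 0 < M := Nat.floor_pos.mpr (by rw [le_div_iff₀ hx8]; linarith)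
  have hM1 : M * x ^ 8 ≤ 1 := by
    have := Nat.floor_le (show 0 ≤ 1 / x ^ 8 by positivity)
    rwa [le_div_iff₀ hx8] at this
  have hM2 : 7 / ((M : ℝ) + 1) ≤ 7 * x ^ 8 := by
    have := Nat.lt_floor_add_one (1 / x ^ 8)
    rw [div_lt_iff₀ hx8] at this
    rw [div_le_iff₀ (by positivity)]
    nlinarith
  obtain ⟨q, hq0, hqM, hq⟩ := dirichlet hw hM0
  have hq' := hq.trans hM2
  have hW := fun {m : ℕ} (hm : S.n + S.n ≤ m) =>
    (h.ok.step_W hβ hw h.u_le (by linarith [hx4.2]) hm hc0 (h.small hβ).2 (h.small hβ).1).2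
  have hqx : q * x ^ 8 ≤ 1 := le_trans (mul_le_mul_of_nonneg_right (by exact_mod_cast hqM) hx8.le) hM1
  have hx2 : x ^ 2 ≤ x := by nlinarith
  by_cases hcase : S.n + S.n ≤ q
  · refine ⟨_, 2 * x ^ 3, h.step_aux hβ hw hi hi' hc hcase (by positivity) (by nlinarith) ?_ ?_, ?_,
      hW hcase (by rw [← pow_mul]; exact hqx)⟩
    · calc x ^ 4 * ‖w ^ q - 1‖ ≤ x ^ 4 * (7 * x ^ 8) := by gcongr
        _ = 7 * x ^ 12 := by ring
        _ ≤ 16 * x ^ 12 := by gcongr; norm_num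
        _ = _ := by ring
    · have h1 : ((S.n + q : ℕ) : ℝ) ≤ 2 * q := by
        have : S.n + q ≤ 2 * q := by omega
        exact_mod_cast this
      calc ((S.n + q : ℕ) : ℝ) * (2 * x ^ 3) ^ 3 ≤ (2 * q) * (2 * x ^ 3) ^ 3 := by gcongr
        _ = 16 * x * (q * x ^ 8) := by ring
        _ ≤ 1 * 1 := by gcongr; linarith
        _ = 1 := by ring
    · have : 0 < x ^ 11 := by positivity
      calc (2 * x ^ 3) ^ 5 = x ^ 11 * (32 * x ^ 4) := by ring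
        _ ≤ x ^ 11 * 1 := by gcongr; linarith [hx4.2]
        _ = _ := by ring
  · obtain ⟨y, hy0, hy4, hy2, hy5⟩ := bad_root hx hxl
    have hm : S.n + S.n ≤ (2 * S.n) * q := by nlinarith
    have hn := h.n_le
    have hn0 : (0 : ℝ) ≤ S.n := Nat.cast_nonneg _
    have hq2 : (q : ℝ) ≤ 2 * S.n := by
      have : q ≤ 2 * S.n := by omega
      exact_mod_cast this
    have hnn : (S.n * x ^ 3) ^ 2 ≤ 1 := pow_le_one₀ (by positivity) hn
    refine ⟨_, y, h.step_aux hβ hw hi hi' hc hm hy0 (by linarith) ?_ ?_, hy5, hW hm ?_⟩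
    · calc x ^ 4 * ‖w ^ (2 * S.n * q) - 1‖ ≤ x ^ 4 * ((2 * S.n : ℕ) * (7 * x ^ 8)) := by
            gcongr
            exact (norm_pow_mul hw q _).trans (by gcongr)
        _ = 14 * x ^ 9 * (S.n * x ^ 3) := by push_cast; ring
        _ ≤ 14 * x ^ 9 * 1 := by gcongr
        _ = _ := by rw [hy4]; ring
    · have h1 : (1 : ℝ) ≤ S.n := by exact_mod_cast h.ok.n_pos
      have h2 : ((S.n + 2 * S.n * q : ℕ) : ℝ) ≤ 5 * S.n ^ 2 := by push_cast; nlinarith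
      calc ((S.n + 2 * S.n * q : ℕ) : ℝ) * y ^ 3 ≤ (5 * S.n ^ 2) * (x ^ 2 / 2) ^ 3 := by gcongr
        _ = 5 / 8 * (S.n * x ^ 3) ^ 2 := by ring
        _ ≤ 1 := by linarith
    · have h2 : ((2 * S.n * q : ℕ) : ℝ) ≤ 4 * S.n ^ 2 := by push_cast; nlinarith
      calc ((2 * S.n * q : ℕ) : ℝ) * (x ^ 4) ^ 2 ≤ (4 * S.n ^ 2) * (x ^ 4) ^ 2 := by gcongr
        _ = 4 * x ^ 2 * (S.n * x ^ 3) ^ 2 := by ring
        _ ≤ 1 * 1 := by gcongr; linarith
        _ = 1 := by ring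

lemma exists_L (hβ : 1 < β) {e : ℝ} (he : 0 < e) :
    ∃ L : ℕ, ∀ m : ℕ, L ≤ m → m * β⁻¹ ^ m ≤ e := by
  have h := tendsto_self_mul_const_pow_of_lt_one (l_pos hβ).le (l_lt hβ)
  obtain ⟨L, hL⟩ := eventually_atTop.mp (h.eventually (ge_mem_nhds he))
  exact ⟨L, hL⟩

lemma exists_close (hw : ‖w‖ = 1) {L : ℕ} (hL : 0 < L) {x : ℝ} (hx : 0 < x) (hx1 : x ≤ 1) :
    ∃ m : ℕ, L ≤ m ∧ ‖w ^ m - 1‖ ≤ x ^ 2 ∧ m * x ^ 2 ≤ 8 * L ^ 2 := by
  have hL' : (1 : ℝ) ≤ L := by exact_mod_cast hL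
  have hx2 : 0 < x ^ 2 := by positivity
  have hx21 : x ^ 2 ≤ 1 := pow_le_one₀ hx.le hx1
  set M := ⌈7 * L / x ^ 2⌉₊ with hM
  have hM0 : 0 < M := Nat.ceil_pos.mpr (by positivity)
  have hM1 : 7 * L ≤ M * x ^ 2 := by
    have := Nat.le_ceil (7 * L / x ^ 2)
    rwa [div_le_iff₀ hx2] at this
  have hM2 : M * x ^ 2 ≤ 8 * L := by
    have := (Nat.ceil_lt_add_one (show 0 ≤ 7 * L / x ^ 2 by positivity)).le
    have h2 := mul_le_mul_of_nonneg_right this hx2.le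
    rw [add_mul, div_mul_cancel₀ _ hx2.ne'] at h2
    linarith
  obtain ⟨q, hq0, hqM, hq⟩ := dirichlet hw hM0
  refine ⟨L * q, Nat.le_mul_of_pos_right _ hq0, (norm_pow_mul hw q L).trans ?_, ?_⟩
  · refine (mul_le_mul_of_nonneg_left hq (by positivity)).trans ?_
    rw [← mul_div_assoc, div_le_iff₀ (by positivity)]
    nlinarith
  · have : (q : ℝ) ≤ M := by exact_mod_cast hqM
    push_cast
    calc (L : ℝ) * q * x ^ 2 ≤ L * M * x ^ 2 := by gcongr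
      _ = L * (M * x ^ 2) := by ring
      _ ≤ L * (8 * L) := by gcongr
      _ = _ := by ring

lemma exists_base0 (hβ : 1 < β) (hw : ‖w‖ = 1) (hi : IsIntegral ℤ β) (hi' : IsIntegral ℤ β⁻¹)
    (htri : ∀ k : ℤ, ∃ z : ℤ, β ^ k + β ^ (-k) + 2 * (w ^ k).re = z) :
    ∃ S : St, Ok β w S ∧ ‖S.u‖ ≤ 1 / 16 := by
  have hl := l_pos hβ
  have hl1 := l_lt hβ
  have hβ0 : β ≠ 0 := by linarith
  have hw0 : w ≠ 0 := by rintro rfl; simp at hw
  obtain ⟨h, hh⟩ := exists_pow_lt_of_lt_one (show 0 < (1 - β⁻¹) / 16 by linarith) hl1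
  have h0 : Ok β w ⟨β⁻¹ ^ h, β ^ h, w⁻¹ ^ h, h + h⟩ := by
    refine ⟨fun k => ?_, l_anti hβ (Nat.le_add_right h h), hh.le, ?_, ?_, hi'.pow _, hi.pow _⟩
    · obtain ⟨z, hz⟩ := htri (k - h)
      refine ⟨z, ?_⟩
      have e1 : β ^ (k - h) = β⁻¹ ^ h * β ^ k := by
        rw [zpow_sub₀ hβ0, zpow_natCast, inv_pow]; field_simp
      have e2 : β ^ (-(k - h)) = β ^ h * β ^ (-k) := by
        rw [neg_sub, sub_eq_add_neg, zpow_add₀ hβ0, zpow_natCast]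
      have e3 : w ^ (k - h) = w⁻¹ ^ h * w ^ k := by
        rw [zpow_sub₀ hw0, zpow_natCast, inv_pow]; field_simp
      rw [← hz, e1, e2, e3]
    · simp only
      rw [abs_of_pos (by positivity), pow_add, ← mul_assoc, mul_comm (β ^ h), l_mul hβ, one_mul]
      exact hh.le
    · exact (l_anti hβ (show h ≤ h + h by omega)).trans (by linarith)
  obtain ⟨m, hm, hm2, -⟩ := exists_close hw (L := h + h + 1) (by omega) (x := 1 / 4) (by norm_num)
    (by norm_num)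
  refine ⟨_, h0.step hβ hw hi hi' (show h + h ≤ m by omega), ?_⟩
  rw [norm_step hw]
  simp only [norm_pow, norm_inv, hw, inv_one, one_pow, one_mul]
  linarith

lemma exists_lb {f : ℕ → ℝ} (hf : ∀ i, 0 < f i) (n : ℕ) : ∃ c : ℝ, 0 < c ∧ ∀ i < n, c ≤ f i := by
  induction n with
  | zero => exact ⟨1, one_pos, fun i hi => by omega⟩
  | succ n ih =>
    obtain ⟨c, hc, h⟩ := ih
    refine ⟨min c (f n), lt_min hc (hf n), fun i hi => ?_⟩
    rcases Nat.lt_succ_iff_lt_or_eq.mp hi with h1 | rfl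
    · exact (min_le_left _ _).trans (h i h1)
    · exact min_le_right _ _

lemma exists_base (hβ : 1 < β) (hw : ‖w‖ = 1) (hi : IsIntegral ℤ β) (hi' : IsIntegral ℤ β⁻¹)
    (htri : ∀ k : ℤ, ∃ z : ℤ, β ^ k + β ^ (-k) + 2 * (w ^ k).re = z) :
    ∃ (c : ℝ) (S : St) (x : ℝ), c ≤ 1 / 4 ∧ Inv β w c S x := by
  have hl := l_pos hβ
  obtain ⟨S, hS, hu⟩ := exists_base0 hβ hw hi hi' htri
  obtain ⟨c1, hc1, h1⟩ := exists_lb (fun i => g_pos_of_integral (hS.ti.mul (hi.pow i))) S.n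
  obtain ⟨c2, hc2, h2⟩ := exists_lb (fun i => g_pos_of_integral (hS.si.mul (hi'.pow i))) S.n
  obtain ⟨c, hc0, hc, hcc1, hcc2⟩ : ∃ c : ℝ, 0 < c ∧ c ≤ 1 / 4 ∧ 2 * c ≤ c1 ∧ 2 * c ≤ c2 :=
    ⟨min (1 / 4) (min (c1 / 2) (c2 / 2)), by positivity, min_le_left _ _,
      by linarith [min_le_right (1 / 4 : ℝ) (min (c1 / 2) (c2 / 2)), min_le_left (c1 / 2) (c2 / 2)],
      by linarith [min_le_right (1 / 4 : ℝ) (min (c1 / 2) (c2 / 2)), min_le_right (c1 / 2) (c2 / 2)]⟩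
  obtain ⟨L0, hL0⟩ := exists_L hβ (show 0 < c / 64 by positivity)
  set L := L0 + S.n with hL
  have hSn := hS.n_pos
  have hL1 : (1 : ℝ) ≤ L := by exact_mod_cast (show 1 ≤ L by omega)
  have hlL : ∀ m : ℕ, L ≤ m → β⁻¹ ^ m ≤ c / 64 := fun m hm => by
    have h3 : (1 : ℝ) ≤ m := by exact_mod_cast (show 1 ≤ m by omega)
    exact le_trans (le_mul_of_one_le_left (by positivity) h3) (hL0 m (by omega))
  obtain ⟨x, hx0, hx1, hx2, hx3⟩ : ∃ x : ℝ, 0 < x ∧ x ≤ 1 / 10 ^ 6 ∧ x ≤ c / 64 ∧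
      x ≤ 1 / (160 * L ^ 2) :=
    ⟨min (1 / 10 ^ 6) (min (c / 64) (1 / (160 * L ^ 2))), by positivity, min_le_left _ _,
      (min_le_right _ _).trans (min_le_left _ _), (min_le_right _ _).trans (min_le_right _ _)⟩
  obtain ⟨m, hm, hm2, hm3⟩ := exists_close hw (L := L + L) (by omega) hx0 (by linarith)
  have hx4 := pow4_le hx0 hx1
  have hxx : x ^ 2 ≤ x / 64 := by nlinarith
  have hT := hS.step hβ hw hi hi' (show S.n ≤ m by omega)
  have hTc := hS.step_cs hβ hw (c := 2 * c) (c' := 2 * c - 4 * (c / 64 + 2 * x ^ 2)) hu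
    (show S.n + L ≤ m by omega) hm2 (fun i hi => hcc1.trans (h1 i hi))
    (fun i hi => hcc2.trans (h2 i hi)) (by nlinarith) (by linarith [hlL L le_rfl])
  set T := step β w S m with hTdef
  have hTn : T.n = S.n + m := rfl
  have hTu : ‖T.u‖ ≤ x ^ 2 / 16 := by
    rw [hTdef, norm_step hw]
    calc _ ≤ 1 / 16 * x ^ 2 := by gcongr
      _ = _ := by ring
  have hU := hT.step hβ hw hi hi' (show T.n ≤ 3 * m by omega)
  refine ⟨c, step β w T (3 * m), x, hc, hU, hx0, hx1, hx2, ?_, ?_, fun k hk => hL0 k ?_, ?_⟩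
  · rw [norm_step hw]
    have := (norm_pow_mul hw m 3).trans (mul_le_mul_of_nonneg_left hm2 (by positivity))
    calc _ ≤ x ^ 2 / 16 * ((3 : ℕ) * x ^ 2) := by gcongr
      _ = 3 / 16 * x ^ 4 := by push_cast; ring
      _ ≤ _ := by nlinarith [pow_pos hx0 4]
  · have h3 : ((step β w T (3 * m)).n : ℝ) ≤ 5 * m := by
      have : (step β w T (3 * m)).n ≤ 5 * m := by simp only [step] at hTn ⊢; omega
      exact_mod_cast this
    rw [le_div_iff₀ (by positivity)] at hx3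
    push_cast at hm3
    calc _ ≤ (5 * m) * x ^ 3 := by gcongr
      _ = 5 * x * (m * x ^ 2) := by ring
      _ ≤ 5 * x * (8 * (L + L) ^ 2) := by gcongr
      _ = x * (160 * L ^ 2) := by ring
      _ ≤ 1 := hx3
  · simp only [step] at hk hTn
    omega
  · refine hT.step_c hβ hw hTu (by linarith) (show T.n + L ≤ 3 * m by omega) hTc ?_ ?_
    · have := hlL (step β w T (3 * m)).n (by simp only [step] at hTn ⊢; omega)
      linarith [hx4.1]
    · have := hlL (step β w T (3 * m)).n (by simp only [step] at hTn ⊢; omega)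
      have := hlL L le_rfl
      have h5 : x ^ 4 ≤ x / 64 := by nlinarith [pow_pos hx0 2]
      linarith

end Vale.Agent.P105
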