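import Vale.Agent.P105.Det

namespace Vale.Agent.P105

open Real Finset Filter MeasureTheory ProbabilityTheory Topology
open scoped ENNReal

/-- fair coin -/
noncomputable def coin : Measure Bool :=
  (1 / 2 : ℝ≥0∞) • Measure.dirac true + (1 / 2 : ℝ≥0∞) • Measure.dirac false

instance coin_prob : IsProbabilityMeasure coin :=
  ⟨by simp [coin, ENNReal.inv_two_add_inv_two]⟩

/-- sign -/
def sg (b : Bool) : ℝ := if b then 1 else -1

/-- the random series -/
noncomputable def Y (l : ℝ) (ω : ℕ → Bool) : ℝ := ∑' n, sg (ω n) * l ^ n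

/-- the product measure -/
noncomputable def PP : Measure (ℕ → Bool) := Measure.infinitePi fun _ : ℕ => coin

instance PP_prob : IsProbabilityMeasure PP := by unfold PP; infer_instance

lemma abs_sg (b : Bool) : |sg b| = 1 := by cases b <;> simp [sg]

variable {l : ℝ}

lemma norm_term (h0 : 0 ≤ l) (b : Bool) (n : ℕ) : ‖sg b * l ^ n‖ = l ^ n := by
  rw [Real.norm_eq_abs, abs_mul, abs_sg, one_mul, abs_of_nonneg (by positivity)]

lemma summ (h0 : 0 ≤ l) (h1 : l < 1) (ω : ℕ → Bool) : Summable fun n => sg (ω n) * l ^ n :=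
  Summable.of_norm_bounded (summable_geometric_of_lt_one h0 h1) fun n => (norm_term h0 _ n).le

lemma abs_Y (h0 : 0 ≤ l) (h1 : l < 1) (ω : ℕ → Bool) : |Y l ω| ≤ (1 - l)⁻¹ :=
  tsum_of_norm_bounded (hasSum_geometric_of_lt_one h0 h1) fun n => (norm_term h0 _ n).le

lemma meas_tail (h0 : 0 ≤ l) (h1 : l < 1) (K : ℕ) {m : MeasurableSpace (ℕ → Bool)}
    (hm : ∀ n, K ≤ n → Measurable[m] fun ω : ℕ → Bool => ω n) :
    Measurable[m] fun ω : ℕ → Bool => ∑' n, sg (ω (n + K)) * l ^ (n + K) := by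
  refine measurable_of_tendsto_metrizable
    (f := fun N ω => ∑ n ∈ range N, sg (ω (n + K)) * l ^ (n + K)) (fun N => ?_) ?_
  · refine Finset.measurable_fun_sum _ fun n _ => ?_
    exact ((measurable_of_finite sg).comp (hm _ (by omega))).mul_const _
  · rw [tendsto_pi_nhds]
    intro ω
    exact ((summable_nat_add_iff K).mpr (summ h0 h1 ω)).hasSum.tendsto_sum_nat

lemma meas_Y (h0 : 0 ≤ l) (h1 : l < 1) : Measurable (Y l) := by
  exact meas_tail h0 h1 0 (m := inferInstance) fun n _ => measurable_pi_apply n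

lemma indep_coord : iIndepFun (fun (i : ℕ) (ω : ℕ → Bool) => ω i) PP :=
  iIndepFun_infinitePi (X := fun _ b => b) fun _ => measurable_id

lemma int_partial (ξ : ℝ) (n : ℕ) :
    ∫ ω, cos (ξ * ∑ k ∈ range n, sg (ω k) * l ^ k) ∂PP = ∏ k ∈ range n, cos (ξ * l ^ k) := by
  have hX : iIndepFun (fun (i : ℕ) (ω : ℕ → Bool) => sg (ω i) * l ^ i) PP :=
    iIndepFun_infinitePi (X := fun i b => sg b * l ^ i) fun _ => measurable_of_finite _
  have hm : ∀ i, Measurable fun ω : ℕ → Bool => sg (ω i) * l ^ i := fun i =>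
    (measurable_of_finite (fun b => sg b * l ^ i)).comp (measurable_pi_apply i)
  have h1 := congrFun (iIndepFun.charFun_map_fun_finsetSum_eq_prod (s := range n)
    (fun i _ => (hm i).aemeasurable) (hX.restrict _)) ξ
  have hs : Measurable fun ω : ℕ → Bool => ∑ k ∈ range n, sg (ω k) * l ^ k :=
    Finset.measurable_fun_sum _ fun k _ => hm k
  have h2 : ∀ i, charFun (PP.map fun ω : ℕ → Bool => sg (ω i) * l ^ i) ξ
      = (cos (ξ * l ^ i) : ℝ) := by
    intro i
    have e : PP.map (fun ω : ℕ → Bool => sg (ω i) * l ^ i)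
        = coin.map fun b => sg b * l ^ i := by
      rw [← Measure.infinitePi_map_eval (fun _ : ℕ => coin) i]
      exact (Measure.map_map (measurable_of_finite fun b => sg b * l ^ i)
        (measurable_pi_apply (X := fun _ : ℕ => Bool) i)).symm
    rw [e, charFun_apply_real, integral_map (measurable_of_finite _).aemeasurable (by fun_prop),
      coin, integral_add_measure (Integrable.of_finite.smul_measure (by simp))
        (Integrable.of_finite.smul_measure (by simp)),
      integral_smul_measure, integral_smul_measure, integral_dirac, integral_dirac]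
    simp only [sg]
    rw [Complex.ofReal_cos, Complex.cos]
    simp
    ring_nf
  rw [Finset.prod_apply, prod_congr rfl fun i _ => h2 i, charFun_apply_real,
    integral_map hs.aemeasurable (by fun_prop), ← Complex.ofReal_prod] at h1
  have h3 := congrArg Complex.re h1
  rw [Complex.ofReal_re] at h3
  rw [← h3]
  have hi : Integrable (fun ω : ℕ → Bool =>
      Complex.exp (ξ * ((∑ k ∈ range n, sg (ω k) * l ^ k : ℝ) : ℂ) * Complex.I)) PP := by
    refine Integrable.of_bound (C := 1) (Measurable.aestronglyMeasurable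
      ((((Complex.measurable_ofReal.comp hs).const_mul _).mul_const _).cexp)) (ae_of_all _ fun ω => ?_)
    rw [← Complex.ofReal_mul, Complex.norm_exp_ofReal_mul_I]
  have h4 := integral_re hi
  simp only [RCLike.re_to_complex] at h4
  rw [← h4]
  refine integral_congr_ae (ae_of_all _ fun ω => ?_)
  simp only
  rw [← Complex.ofReal_mul, Complex.exp_ofReal_mul_I_re]

lemma tendsto_char (h0 : 0 ≤ l) (h1 : l < 1) (ξ : ℝ) :
    Tendsto (fun n => ∏ k ∈ range n, cos (ξ * l ^ k)) atTop (𝓝 (∫ ω, cos (ξ * Y l ω) ∂PP)) := by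
  simp only [← int_partial]
  refine tendsto_integral_of_dominated_convergence (fun _ => 1) (fun n => ?_) (integrable_const _)
    (fun n => ae_of_all _ fun ω => abs_cos_le_one _) (ae_of_all _ fun ω => ?_)
  · have hs : Measurable fun ω : ℕ → Bool => ∑ k ∈ range n, sg (ω k) * l ^ k :=
      Finset.measurable_fun_sum _ fun i _ =>
        (measurable_of_finite (fun b => sg b * l ^ i)).comp (measurable_pi_apply i)
    exact (measurable_cos.comp (hs.const_mul ξ)).aestronglyMeasurable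
  · exact (continuous_cos.tendsto _).comp ((summ h0 h1 ω).hasSum.tendsto_sum_nat.const_mul ξ)

lemma int_cos_le {η B : ℝ} (hη : 0 < η) : |∫ x in (-B)..B, cos (η * x)| ≤ 2 / η := by
  rw [intervalIntegral.integral_comp_mul_left (fun x => cos x) hη.ne', integral_cos, smul_eq_mul,
    abs_mul, abs_of_pos (inv_pos.mpr hη), div_eq_inv_mul]
  refine mul_le_mul_of_nonneg_left ?_ (by positivity)
  refine (abs_sub _ _).trans ?_
  linarith [abs_sin_le_one (η * B), abs_sin_le_one (η * -B)]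

lemma dsum_le {K : ℕ} {f : ℕ → ℕ → ℝ} {a b : ℝ} (hb : 0 ≤ b) (hd : ∀ i < K, f i i ≤ a)
    (ho : ∀ i < K, ∀ j < K, i ≠ j → f i j ≤ b) :
    ∑ i ∈ range K, ∑ j ∈ range K, f i j ≤ K * a + K ^ 2 * b := by
  have : ∀ i ∈ range K, ∑ j ∈ range K, f i j ≤ a + K * b := fun i hi => by
    calc ∑ j ∈ range K, f i j ≤ ∑ j ∈ range K, ((if i = j then a else 0) + b) := by
          refine sum_le_sum fun j hj => ?_
          split_ifs with h
          · subst h; linarith [hd i (mem_range.mp hi)]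
          · linarith [ho i (mem_range.mp hi) j (mem_range.mp hj) h]
      _ = a + K * b := by rw [sum_add_distrib, sum_ite_eq, if_pos hi]; simp
  refine (sum_le_sum this).trans (le_of_eq ?_)
  simp; ring

lemma not_ac (h0 : 0 ≤ l) (h1 : l < 1) {C : ℝ} (hC : 0 ≤ C)
    (H : ∀ ε : ℝ, 0 < ε → ∃ (K : ℕ) (ξ : ℕ → ℝ) (γ : ℝ), 0 < γ ∧ 1 ≤ ε * K * γ ^ 2 ∧
      (∀ i < K, ∀ᶠ n in atTop, γ ≤ |∏ k ∈ range n, cos (ξ i * l ^ k)|) ∧
      ∀ i < K, ∀ j < K, i < j → K ≤ ξ j - ξ i ∧
        ∀ᶠ n in atTop, |∏ k ∈ range n, cos ((ξ j - ξ i) * l ^ k)| ≤ C * γ ^ 2)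
    {δ : ℝ} (hδ : 0 < δ) :
    ∃ E : Set ℝ, MeasurableSet E ∧ volume E ≤ ENNReal.ofReal δ ∧
      1 / (4 * (C + 1)) ≤ PP.real (Y l ⁻¹' E) := by
  set B := (1 - l)⁻¹ + 1 with hB
  have hB0 : 0 < (1 - l)⁻¹ := inv_pos.mpr (by linarith)
  have hB1 : 0 < B := by linarith
  obtain ⟨ε, hε0, hε1, hε2⟩ : ∃ ε : ℝ, 0 < ε ∧ ε ≤ 1 ∧ ε ≤ δ / (8 * (B + 1)) :=
    ⟨min 1 (δ / (8 * (B + 1))), by positivity, min_le_left _ _, min_le_right _ _⟩
  obtain ⟨K, ξ, γ, hγ, hK, hlo, hup⟩ := H ε hε0
  have hK0 : (0 : ℝ) < K := by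
    by_contra h
    have : (K : ℝ) = 0 := le_antisymm (not_lt.mp h) (Nat.cast_nonneg _)
    rw [this] at hK
    norm_num at hK
  have hmY := meas_Y h0 h1
  set φ : ℝ → ℝ := fun η => ∫ ω, cos (η * Y l ω) ∂PP with hφ
  have hφ1 : ∀ i < K, γ ≤ |φ (ξ i)| := fun i hi =>
    ge_of_tendsto (tendsto_char h0 h1 _).abs (hlo i hi)
  have hφ2 : ∀ i < K, ∀ j < K, i < j → |φ (ξ j - ξ i)| ≤ C * γ ^ 2 := fun i hi j hj hij =>
    le_of_tendsto (tendsto_char h0 h1 _).abs (hup i hi j hj hij).2
  have hφe : ∀ η, φ (-η) = φ η := fun η => by simp [hφ]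
  set s : ℕ → ℝ := fun i => if 0 ≤ φ (ξ i) then 1 else -1 with hs
  have hs1 : ∀ i, |s i| = 1 := fun i => by simp only [hs]; split_ifs <;> simp
  have hs2 : ∀ i, s i * φ (ξ i) = |φ (ξ i)| := fun i => by
    simp only [hs]
    split_ifs with h
    · rw [one_mul, abs_of_nonneg h]
    · rw [abs_of_neg (not_le.mp h)]; ring
  have hss : ∀ i j (y : ℝ), s i * s j * y ≤ |y| := fun i j y => by
    refine (le_abs_self _).trans (le_of_eq ?_)
    rw [abs_mul, abs_mul, hs1, hs1]; ring
  set R : ℝ → ℝ := fun x => ∑ i ∈ range K, s i * cos (ξ i * x) with hR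
  set Q : ℝ → ℝ := fun x => ∑ i ∈ range K, ∑ j ∈ range K, s i * s j * cos ((ξ j - ξ i) * x) with hQ
  have hRQ : ∀ x, R x ^ 2 ≤ Q x := fun x => by
    have : Q x = R x ^ 2 + (∑ i ∈ range K, s i * sin (ξ i * x)) ^ 2 := by
      simp only [hQ, hR]
      rw [sq, sq, sum_mul_sum, sum_mul_sum, ← sum_add_distrib]
      refine sum_congr rfl fun i _ => ?_
      rw [← sum_add_distrib]
      refine sum_congr rfl fun j _ => ?_
      rw [sub_mul, cos_sub]; ring
    rw [this]
    linarith [sq_nonneg (∑ i ∈ range K, s i * sin (ξ i * x))]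
  have hQc : Continuous Q := by simp only [hQ]; fun_prop
  have hic : ∀ a η : ℝ, Integrable (fun ω => a * cos (η * Y l ω)) PP := fun a η =>
    (Integrable.of_bound (C := 1) (measurable_cos.comp (hmY.const_mul η)).aestronglyMeasurable
      (ae_of_all _ fun ω => abs_cos_le_one _)).const_mul a
  have hiR : Integrable (fun ω => R (Y l ω)) PP := integrable_finsetSum _ fun i _ => hic _ _
  have hiQ : Integrable (fun ω => Q (Y l ω)) PP :=
    integrable_finsetSum _ fun i _ => integrable_finsetSum _ fun j _ => hic _ _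
  have hIR : K * γ ≤ ∫ ω, R (Y l ω) ∂PP := by
    simp only [hR]
    rw [integral_finsetSum _ fun i _ => hic _ _]
    calc K * γ = ∑ i ∈ range K, γ := by simp
      _ ≤ _ := sum_le_sum fun i hi => by
        rw [integral_const_mul]
        exact (hφ1 i (mem_range.mp hi)).trans (hs2 i).ge
  have hIQ : ∫ ω, Q (Y l ω) ∂PP ≤ (C + 1) * (K * γ) ^ 2 := by
    simp only [hQ]
    rw [integral_finsetSum _ fun i _ => integrable_finsetSum _ fun j _ => hic _ _]
    rw [sum_congr rfl fun i _ => integral_finsetSum _ fun j _ => hic _ _]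
    simp only [integral_const_mul]
    refine (dsum_le (a := 1) (b := C * γ ^ 2) (by positivity) (fun i _ => ?_)
      fun i hi j hj hij => ?_).trans ?_
    · refine (hss _ _ _).trans ?_
      simp
    · refine (hss _ _ _).trans ?_
      rcases lt_or_gt_of_ne hij with h | h
      · exact hφ2 i hi j hj h
      · have := hφ2 j hj i hi h
        rw [← hφe, neg_sub] at this
        exact this
    · have : 1 ≤ K * γ ^ 2 := hK.trans (by
        rw [mul_assoc]; exact mul_le_of_le_one_left (by positivity) hε1)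
      nlinarith
  have hLQ : ∫ x in (-B)..B, Q x ≤ K * (2 * B + 2) := by
    simp only [hQ]
    rw [intervalIntegral.integral_finsetSum fun i _ => Continuous.intervalIntegrable (by fun_prop) _ _]
    rw [sum_congr rfl fun i _ => intervalIntegral.integral_finsetSum fun j _ =>
      Continuous.intervalIntegrable (by fun_prop) _ _]
    simp only [intervalIntegral.integral_const_mul]
    refine (dsum_le (a := 2 * B) (b := 2 / K) (by positivity) (fun i _ => ?_)
      fun i hi j hj hij => ?_).trans (le_of_eq ?_)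
    · refine (hss _ _ _).trans ?_
      simp
      rw [abs_of_pos (by linarith)]
      linarith
    · refine (hss _ _ _).trans ?_
      rcases lt_or_gt_of_ne hij with h | h
      · have h2 := (hup i hi j hj h).1
        exact (int_cos_le (by linarith)).trans (by gcongr)
      · have h2 := (hup j hj i hi h).1
        have e : ∀ x, cos ((ξ j - ξ i) * x) = cos ((ξ i - ξ j) * x) := fun x => by
          rw [← cos_neg]; congr 1; ring
        simp only [e]
        exact (int_cos_le (by linarith)).trans (by gcongr)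
    · field_simp
  have hmE : MeasurableSet {x | (K * γ) ^ 2 / 4 ≤ Q x} := measurableSet_le measurable_const hQc.measurable
  refine ⟨{x | (K * γ) ^ 2 / 4 ≤ Q x} ∩ Set.Ioc (-B) B, hmE.inter measurableSet_Ioc, ?_, ?_⟩
  · have h2 := mul_meas_ge_le_integral_of_nonneg (μ := volume.restrict (Set.Ioc (-B) B))
      (ae_of_all _ fun x => (sq_nonneg _).trans (hRQ x))
      (hQc.intervalIntegrable (-B) B).1 ((K * γ) ^ 2 / 4)
    rw [← intervalIntegral.integral_of_le (by linarith), measureReal_restrict_apply hmE] at h2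
    have h3 := h2.trans hLQ
    have hfin : volume ({x | (K * γ) ^ 2 / 4 ≤ Q x} ∩ Set.Ioc (-B) B) ≠ ⊤ :=
      ne_top_of_le_ne_top measure_Ioc_lt_top.ne (measure_mono Set.inter_subset_right)
    rw [← ENNReal.ofReal_toReal hfin]
    apply ENNReal.ofReal_le_ofReal
    change volume.real _ ≤ δ
    generalize volume.real ({x | (K * γ) ^ 2 / 4 ≤ Q x} ∩ Set.Ioc (-B) B) = v at h3 ⊢
    rw [le_div_iff₀ (by positivity)] at hε2
    by_contra hv
    push Not at hv
    have h4 : (K * γ) ^ 2 / 4 * δ < (K * γ) ^ 2 / 4 * v := by gcongr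
    have h5 : K * (2 * B + 2) * 1 ≤ K * (2 * B + 2) * (ε * K * γ ^ 2) := by gcongr
    have h6 : (K * γ) ^ 2 / 4 * (ε * (8 * (B + 1))) ≤ (K * γ) ^ 2 / 4 * δ := by gcongr
    nlinarith
  · set E := {x | (K * γ) ^ 2 / 4 ≤ Q x} ∩ Set.Ioc (-B) B with hE
    have hmE' : MeasurableSet (Y l ⁻¹' E) := hmY (hmE.inter measurableSet_Ioc)
    set G := K * γ with hG
    have hG0 : 0 < G := by positivity
    have hpt : ∀ ω, R (Y l ω) ≤ G / 2 + (4 * (C + 1) * G)⁻¹ * Q (Y l ω)
        + (C + 1) * G * (Y l ⁻¹' E).indicator 1 ω := fun ω => by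
      have hq := hRQ (Y l ω)
      have ha : 0 < (4 * (C + 1) * G)⁻¹ := by positivity
      by_cases hω : ω ∈ Y l ⁻¹' E
      · rw [Set.indicator_of_mem hω, Pi.one_apply, mul_one]
        have h2 : (4 * (C + 1) * G)⁻¹ * R (Y l ω) ^ 2 ≤ (4 * (C + 1) * G)⁻¹ * Q (Y l ω) := by gcongr
        have h3 : R (Y l ω) ≤ (4 * (C + 1) * G)⁻¹ * R (Y l ω) ^ 2 + (C + 1) * G := by
          have h4 : 0 ≤ (4 * (C + 1) * G)⁻¹ * (R (Y l ω) - 2 * (C + 1) * G) ^ 2 := by positivity
          have h5 : (4 * (C + 1) * G)⁻¹ * (R (Y l ω) - 2 * (C + 1) * G) ^ 2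
              = (4 * (C + 1) * G)⁻¹ * R (Y l ω) ^ 2 - R (Y l ω) + (C + 1) * G := by
            field_simp; ring
          linarith
        linarith
      · rw [Set.indicator_of_notMem hω, mul_zero, add_zero]
        have h2 := abs_le.mp (abs_Y h0 h1 ω)
        have h3 : Q (Y l ω) < G ^ 2 / 4 := by
          by_contra h4
          exact hω ⟨not_lt.mp h4, by linarith [h2.1], by linarith [h2.2]⟩
        have h4 : R (Y l ω) ≤ G / 2 := by nlinarith
        have h5 : 0 ≤ (4 * (C + 1) * G)⁻¹ * Q (Y l ω) := mul_nonneg ha.le ((sq_nonneg _).trans hq)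
        linarith
    have hiI : Integrable ((Y l ⁻¹' E).indicator (1 : (ℕ → Bool) → ℝ)) PP :=
      (integrable_const 1).indicator hmE'
    have h2 := integral_mono hiR (((integrable_const (G / 2)).add (hiQ.const_mul _)).add
      (hiI.const_mul _)) hpt
    rw [integral_add' ((integrable_const (G / 2)).add (hiQ.const_mul _)) (hiI.const_mul _),
      integral_add' (integrable_const (G / 2)) (hiQ.const_mul _), integral_const_mul,
      integral_const_mul, integral_indicator_one hmE', integral_const] at h2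
    simp only [probReal_univ, smul_eq_mul, one_mul] at h2
    have h3 : (4 * (C + 1) * G)⁻¹ * ∫ ω, Q (Y l ω) ∂PP ≤ G / 4 := by
      calc _ ≤ (4 * (C + 1) * G)⁻¹ * ((C + 1) * G ^ 2) := by gcongr
        _ = G / 4 := by field_simp
    rw [div_le_iff₀ (by positivity)]
    have h4 : G / 4 ≤ (C + 1) * G * PP.real (Y l ⁻¹' E) := by linarith
    have h5 : G * 1 ≤ G * (PP.real (Y l ⁻¹' E) * (4 * (C + 1))) := by linarith
    exact le_of_mul_le_mul_left h5 hG0

lemma null_pos (h0 : 0 ≤ l) (h1 : l < 1) {c : ℝ} (hc : 0 < c)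
    (H : ∀ δ : ℝ, 0 < δ → ∃ E : Set ℝ, MeasurableSet E ∧ volume E ≤ ENNReal.ofReal δ ∧
      c ≤ PP.real (Y l ⁻¹' E)) :
    ∃ A : Set ℝ, MeasurableSet A ∧ volume A = 0 ∧ PP (Y l ⁻¹' A) ≠ 0 := by
  choose E hE1 hE2 hE3 using fun j : ℕ => H ((1 / 2) ^ j) (by positivity)
  have hmY := meas_Y h0 h1
  refine ⟨⋂ n, ⋃ j ≥ n, E j, MeasurableSet.iInter fun n => MeasurableSet.biUnion
    (Set.to_countable _) fun j _ => hE1 j, ?_, ?_⟩
  · have h2 : ∑' j, volume (E j) ≠ ⊤ := by
      refine ne_top_of_le_ne_top ?_ (ENNReal.tsum_le_tsum hE2)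
      rw [← ENNReal.ofReal_tsum_of_nonneg (fun _ => by positivity) summable_geometric_two]
      exact ENNReal.ofReal_ne_top
    have := measure_limsup_atTop_eq_zero h2
    rwa [limsup_eq_iInf_iSup_of_nat] at this
  · have h2 := tendsto_measure_iInter_atTop (μ := PP) (s := fun n => Y l ⁻¹' ⋃ j ≥ n, E j)
      (fun n => (hmY (MeasurableSet.biUnion (Set.to_countable _) fun j _ => hE1 j)).nullMeasurableSet)
      (fun n m hnm => Set.preimage_mono (Set.biUnion_subset_biUnion_left fun j hj => le_trans hnm hj))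
      ⟨0, measure_ne_top _ _⟩
    rw [Set.preimage_iInter]
    have h3 : ENNReal.ofReal c ≤ PP (⋂ n, Y l ⁻¹' ⋃ j ≥ n, E j) := by
      refine ge_of_tendsto' h2 fun n => ?_
      refine le_trans ?_ (measure_mono (Set.preimage_mono (Set.subset_biUnion_of_mem (u := E)
        (show n ∈ {j | j ≥ n} from le_refl n))))
      rw [← ofReal_measureReal (measure_ne_top _ _)]
      exact ENNReal.ofReal_le_ofReal (hE3 n)
    exact (lt_of_lt_of_le (ENNReal.ofReal_pos.mpr hc) h3).ne'

lemma pure_type (h0 : 0 ≤ l) (h1 : l < 1) {A : Set ℝ} (hA : MeasurableSet A) (hA0 : volume A = 0)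
    (hA1 : PP (Y l ⁻¹' A) ≠ 0) :
    ∃ A' : Set ℝ, MeasurableSet A' ∧ volume A' = 0 ∧ PP (Y l ⁻¹' A') = 1 := by
  set D := Submodule.span ℤ (Set.range fun n : ℕ => l ^ n) with hD
  have hDc : Countable D := inferInstance
  set A' : Set ℝ := ⋃ d : D, (fun x => x + d) ⁻¹' A with hA'
  have hm : MeasurableSet A' := MeasurableSet.iUnion fun d => measurable_add_const _ hA
  have hinv : ∀ (x : ℝ) (d : ℝ), d ∈ D → (d + x ∈ A' ↔ x ∈ A') := by
    intro x d hd
    simp only [hA', Set.mem_iUnion, Set.mem_preimage]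
    constructor
    · rintro ⟨e, he⟩
      exact ⟨⟨d + e, add_mem hd e.2⟩, by simpa [add_comm, add_left_comm, add_assoc] using he⟩
    · rintro ⟨e, he⟩
      exact ⟨⟨e - d, sub_mem e.2 hd⟩, by
        have : d + x + (e - d) = x + e := by ring
        simpa [this] using he⟩
  refine ⟨A', hm, measure_iUnion_null fun d => by rw [measure_preimage_add_right, hA0], ?_⟩
  have hsub : Y l ⁻¹' A ⊆ Y l ⁻¹' A' :=
    Set.preimage_mono fun x hx => Set.mem_iUnion.mpr ⟨0, by simpa using hx⟩
  refine (measure_zero_or_one_of_measurableSet_limsup_atTop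
    (fun n => (measurable_pi_apply n).comap_le) indep_coord.iIndep ?_).resolve_left
    fun h => hA1 (measure_mono_null hsub h)
  rw [limsup_eq_iInf_iSup_of_nat, MeasurableSpace.measurableSet_iInf]
  intro K
  have h2 := meas_tail h0 h1 K
    (m := ⨆ i ≥ K, MeasurableSpace.comap (fun ω : ℕ → Bool => ω i) inferInstance) fun n hn =>
      Measurable.of_comap_le (le_iSup₂_of_le (f := fun i (_ : i ≥ K) =>
        MeasurableSpace.comap (fun ω : ℕ → Bool => ω i) inferInstance) n hn le_rfl)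
  have h3 : Y l ⁻¹' A' = (fun ω : ℕ → Bool => ∑' n, sg (ω (n + K)) * l ^ (n + K)) ⁻¹' A' := by
    ext ω
    simp only [Set.mem_preimage]
    unfold Y
    rw [← (summ h0 h1 ω).sum_add_tsum_nat_add K]
    refine hinv _ _ (sum_mem fun i _ => ?_)
    have : l ^ i ∈ D := Submodule.subset_span ⟨i, rfl⟩
    cases ω i
    · simpa [sg] using this
    · simpa [sg] using this
  rw [h3]
  exact h2 hm

theorem singular {β : ℝ} {w : ℂ} (hβ : 1 < β) (hw : ‖w‖ = 1) (hi : IsIntegral ℤ β)
    (hi' : IsIntegral ℤ β⁻¹) (htri : ∀ k : ℤ, ∃ z : ℤ, β ^ k + β ^ (-k) + 2 * (w ^ k).re = z) :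
    ∃ A : Set ℝ, MeasurableSet A ∧ volume A = 0 ∧ PP.map (Y β⁻¹) A = 1 := by
  have h0 := (l_pos hβ).le
  have h1 := l_lt hβ
  obtain ⟨A, hA, hA0, hA1⟩ := null_pos h0 h1 (c := 1 / (4 * (4 * exp 520 + 1))) (by positivity)
    fun δ hδ => not_ac h0 h1 (by positivity) (fun ε hε => det hβ hw hi hi' htri hε) hδ
  obtain ⟨A', h2, h3, h4⟩ := pure_type h0 h1 hA hA0 hA1
  exact ⟨A', h2, h3, by rw [Measure.map_apply (meas_Y h0 h1) h2, h4]⟩

end Vale.Agent.P105
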