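import Vale.Agent.P105.Cos

namespace Vale.Agent.P105

open Real Finset

/-- a triple of conjugates and a window length -/
structure St where
  t : ℝ
  s : ℝ
  u : ℂ
  n : ℕ

/-- normalisation of a state -/
structure Ok (β : ℝ) (w : ℂ) (S : St) : Prop where
  tri : ∀ k : ℤ, ∃ z : ℤ, S.t * β ^ k + S.s * β ^ (-k) + 2 * (S.u * w ^ k).re = z
  t_lo : β⁻¹ ^ S.n ≤ S.t
  t_hi : S.t ≤ (1 - β⁻¹) / 16
  s_hi : |S.s| * β⁻¹ ^ S.n ≤ (1 - β⁻¹) / 16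
  big : β⁻¹ ^ S.n ≤ 1 / 2
  ti : IsIntegral ℤ S.t
  si : IsIntegral ℤ S.s

/-- the doubling step -/
noncomputable def step (β : ℝ) (w : ℂ) (S : St) (m : ℕ) : St :=
  ⟨S.t * (1 - β⁻¹ ^ m), S.s * (1 - β ^ m), S.u * (1 - w⁻¹ ^ m), S.n + m⟩

/-- window weight -/
noncomputable def W (β : ℝ) (S : St) : ℝ := ∏ i ∈ range S.n, g (S.t * β ^ i)

variable {β : ℝ} {w : ℂ} {S : St}

lemma l_pos (hβ : 1 < β) : 0 < β⁻¹ := inv_pos.mpr (by linarith)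
lemma l_lt (hβ : 1 < β) : β⁻¹ < 1 := inv_lt_one_of_one_lt₀ hβ
lemma l_anti (hβ : 1 < β) {i j : ℕ} (h : i ≤ j) : β⁻¹ ^ j ≤ β⁻¹ ^ i :=
  pow_le_pow_of_le_one (l_pos hβ).le (l_lt hβ).le h
lemma l_mul (hβ : 1 < β) (i : ℕ) : β⁻¹ ^ i * β ^ i = 1 := by
  rw [← mul_pow, inv_mul_cancel₀ (by linarith), one_pow]

lemma Ok.t_pos (hβ : 1 < β) (h : Ok β w S) : 0 < S.t :=
  lt_of_lt_of_le (pow_pos (l_pos hβ) _) h.t_lo

lemma Ok.step (hβ : 1 < β) (hw : ‖w‖ = 1) (hi : IsIntegral ℤ β) (hi' : IsIntegral ℤ β⁻¹)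
    (h : Ok β w S) {m : ℕ} (hm : S.n ≤ m) : Ok β w (step β w S m) := by
  have hβ0 : β ≠ 0 := by linarith
  have hw0 : w ≠ 0 := by rintro rfl; simp at hw
  have hl := l_pos hβ
  have hlm : β⁻¹ ^ m ≤ 1 / 2 := (l_anti hβ hm).trans h.big
  have hlm0 : 0 < β⁻¹ ^ m := pow_pos hl _
  have ht := h.t_pos hβ
  refine ⟨fun k => ?_, ?_, ?_, ?_, ?_, ?_, ?_⟩
  · obtain ⟨z, hz⟩ := h.tri k
    obtain ⟨z', hz'⟩ := h.tri (k - m)
    refine ⟨z - z', ?_⟩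
    push_cast
    rw [← hz, ← hz']
    simp only [Vale.Agent.P105.step]
    have e1 : β ^ (k - m) = β⁻¹ ^ m * β ^ k := by
      rw [zpow_sub₀ hβ0, zpow_natCast, inv_pow]; field_simp
    have e2 : β ^ (-(k - m)) = β ^ m * β ^ (-k) := by
      rw [neg_sub, sub_eq_add_neg, zpow_add₀ hβ0, zpow_natCast]
    have e3 : w ^ (k - m) = w⁻¹ ^ m * w ^ k := by
      rw [zpow_sub₀ hw0, zpow_natCast, inv_pow]; field_simp
    have e4 : S.u * (1 - w⁻¹ ^ m) * w ^ k = S.u * w ^ k - S.u * (w⁻¹ ^ m * w ^ k) := by ring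
    rw [e1, e2, e3, e4, Complex.sub_re]
    ring
  · simp only [Vale.Agent.P105.step]
    rw [pow_add]
    exact mul_le_mul h.t_lo (by linarith) hlm0.le ht.le
  · simp only [Vale.Agent.P105.step]
    nlinarith [h.t_hi]
  · simp only [Vale.Agent.P105.step]
    have h1 : 1 ≤ β ^ m := one_le_pow₀ hβ.le
    have h2 := l_mul hβ m
    rw [abs_mul, abs_of_nonpos (show 1 - β ^ m ≤ 0 by linarith), pow_add]
    have h3 : 0 ≤ |S.s| * β⁻¹ ^ S.n := by positivity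
    have h4 : |S.s| * -(1 - β ^ m) * (β⁻¹ ^ S.n * β⁻¹ ^ m)
        = |S.s| * β⁻¹ ^ S.n * (1 - β⁻¹ ^ m) := by linear_combination (|S.s| * β⁻¹ ^ S.n) * h2
    rw [h4]
    nlinarith [h.s_hi]
  · simp only [Vale.Agent.P105.step]
    exact (l_anti hβ (by omega)).trans h.big
  · exact h.ti.mul (isIntegral_one.sub (hi'.pow m))
  · exact h.si.mul (isIntegral_one.sub (hi.pow m))

lemma Ok.tri_nat (h : Ok β w S) (k : ℕ) :
    ∃ z : ℤ, S.t * β ^ k + S.s * β⁻¹ ^ k + 2 * (S.u * w ^ k).re = z := by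
  obtain ⟨z, hz⟩ := h.tri k
  refine ⟨z, ?_⟩
  rw [← hz, zpow_neg, zpow_natCast, zpow_natCast, inv_pow]

lemma re_le (hw : ‖w‖ = 1) (u : ℂ) (k : ℕ) : |(u * w ^ k).re| ≤ ‖u‖ := by
  refine (Complex.abs_re_le_norm _).trans ?_
  rw [norm_mul, norm_pow, hw, one_pow, mul_one]

lemma Ok.s_le (hβ : 1 < β) (h : Ok β w S) (i : ℕ) :
    |S.s * β⁻¹ ^ (S.n + i)| ≤ (1 - β⁻¹) / 16 * β⁻¹ ^ i := by
  have hl := l_pos hβ
  rw [abs_mul, abs_of_pos (pow_pos hl _), pow_add, ← mul_assoc]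
  exact mul_le_mul_of_nonneg_right h.s_hi (by positivity)

lemma Ok.post (hβ : 1 < β) (hw : ‖w‖ = 1) (h : Ok β w S) {r : ℝ} (hr : ‖S.u‖ ≤ r) (i : ℕ) :
    ∃ z : ℤ, |S.t * β ^ (S.n + i) - z| ≤ (1 - β⁻¹) / 16 * β⁻¹ ^ i + 2 * r := by
  obtain ⟨z, hz⟩ := h.tri_nat (S.n + i)
  refine ⟨z, ?_⟩
  have h1 := abs_le.mp (h.s_le hβ i)
  have h2 := abs_le.mp ((re_le hw S.u (S.n + i)).trans hr)
  rw [abs_le]
  constructor <;> linarith [h1.1, h1.2, h2.1, h2.2]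

lemma Ok.pre (hβ : 1 < β) (h : Ok β w S) {i j m : ℕ} (hm : i + j ≤ m) :
    0 ≤ S.t * β⁻¹ ^ m * β ^ i ∧ S.t * β⁻¹ ^ m * β ^ i ≤ (1 - β⁻¹) / 16 * β⁻¹ ^ j := by
  have hl := l_pos hβ
  have ht := h.t_pos hβ
  obtain ⟨d, rfl⟩ := Nat.exists_eq_add_of_le hm
  have e : S.t * β⁻¹ ^ (i + j + d) * β ^ i = S.t * β⁻¹ ^ (j + d) := by
    rw [add_assoc, pow_add]
    linear_combination (S.t * β⁻¹ ^ (j + d)) * l_mul hβ i
  rw [e]
  exact ⟨by positivity, mul_le_mul h.t_hi (l_anti hβ (by omega)) (by positivity)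
    (by linarith [l_lt hβ])⟩

lemma eta_le (hβ : 1 < β) (j : ℕ) : (1 - β⁻¹) / 16 * β⁻¹ ^ j ≤ β⁻¹ ^ j :=
  mul_le_of_le_one_left (pow_pos (l_pos hβ) _).le (by linarith [l_pos hβ])

lemma Ok.win1 (hβ : 1 < β) (h : Ok β w S) {i j m : ℕ} (hi : i < S.n) (hm : S.n + j ≤ m) :
    |g ((Vale.Agent.P105.step β w S m).t * β ^ i) - g (S.t * β ^ i)| ≤ 4 * β⁻¹ ^ j := by
  apply g_near (n := 0)
  have h1 := h.pre hβ (i := i) (j := j) (m := m) (by omega)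
  have h2 := eta_le hβ j
  simp only [Vale.Agent.P105.step]
  rw [abs_le]
  constructor <;> push_cast <;> nlinarith [h1.1, h1.2]

lemma step_t2 (hβ : 1 < β) (S : St) (m i : ℕ) :
    (Vale.Agent.P105.step β w S m).t * β ^ (m + i) = S.t * β ^ (m + i) - S.t * β ^ i := by
  simp only [Vale.Agent.P105.step]
  rw [pow_add]
  linear_combination (-S.t * β ^ i) * l_mul hβ m

lemma Ok.win2 (hβ : 1 < β) (hw : ‖w‖ = 1) (h : Ok β w S) {r : ℝ} (hr : ‖S.u‖ ≤ r) {j m : ℕ}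
    (i : ℕ) (hm : S.n + j ≤ m) :
    |g ((Vale.Agent.P105.step β w S m).t * β ^ (m + i)) - g (S.t * β ^ i)|
      ≤ 4 * (β⁻¹ ^ j + 2 * r) := by
  obtain ⟨d, rfl⟩ := Nat.exists_eq_add_of_le hm
  obtain ⟨z, hz⟩ := h.post hβ hw hr (j + d + i)
  apply g_near_neg (n := z)
  rw [step_t2 hβ]
  have h2 := eta_le hβ (j + d + i)
  have h3 := l_anti hβ (show j ≤ j + d + i by omega)
  have e : S.n + j + d + i = S.n + (j + d + i) := by ring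
  rw [e, show S.t * β ^ (S.n + (j + d + i)) - S.t * β ^ i - z + S.t * β ^ i
    = S.t * β ^ (S.n + (j + d + i)) - z by ring]
  linarith

lemma Ok.win2s (hβ : 1 < β) (hw : ‖w‖ = 1) (h : Ok β w S) {δ : ℝ} (hr : ‖S.u‖ ≤ 1) {j m : ℕ}
    (i : ℕ) (hm : S.n + j ≤ m) (hδ : ‖w ^ m - 1‖ ≤ δ) :
    |g ((Vale.Agent.P105.step β w S m).t * β ^ (m + i)) - g (S.s * β⁻¹ ^ i)|
      ≤ 4 * (β⁻¹ ^ j + 2 * δ) := by
  obtain ⟨d, rfl⟩ := Nat.exists_eq_add_of_le hm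
  obtain ⟨z, hz⟩ := h.tri_nat (S.n + j + d + i)
  obtain ⟨z', hz'⟩ := h.tri_nat i
  apply g_near (n := z - z')
  rw [step_t2 hβ]
  have h1 := h.s_le hβ (j + d + i)
  have h2 := eta_le hβ (j + d + i)
  have h3 := l_anti hβ (show j ≤ j + d + i by omega)
  rw [show S.n + (j + d + i) = S.n + j + d + i by ring] at h1
  have h4 : |(S.u * (w ^ (S.n + j + d) - 1) * w ^ i).re| ≤ δ := by
    refine (re_le hw _ i).trans ?_
    rw [norm_mul]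
    exact (mul_le_of_le_one_left (norm_nonneg _) hr).trans hδ
  rw [show S.u * (w ^ (S.n + j + d) - 1) * w ^ i = S.u * w ^ (S.n + j + d + i) - S.u * w ^ i by ring,
    Complex.sub_re] at h4
  push_cast
  rw [← hz, ← hz', abs_le]
  have h5 := abs_le.mp h1
  have h6 := abs_le.mp h4
  constructor <;> linarith [h5.1, h5.2, h6.1, h6.2]

lemma Ok.gap (hβ : 1 < β) (hw : ‖w‖ = 1) (h : Ok β w S) {r : ℝ} (hr : ‖S.u‖ ≤ r) {i d : ℕ}
    (hi : i < d) :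
    ∃ z : ℤ, |(Vale.Agent.P105.step β w S (S.n + d)).t * β ^ (S.n + i) - z|
      ≤ (1 - β⁻¹) / 16 * β⁻¹ ^ i + (1 - β⁻¹) / 16 * β⁻¹ ^ (d - 1 - i) + 2 * r := by
  obtain ⟨z, hz⟩ := h.post hβ hw hr i
  refine ⟨z, ?_⟩
  have h1 := h.pre hβ (i := S.n + i) (j := d - 1 - i) (m := S.n + d) (by omega)
  simp only [Vale.Agent.P105.step]
  have h2 := abs_le.mp hz
  rw [abs_le]
  constructor <;> nlinarith [h1.1, h1.2, h2.1, h2.2]

lemma Ok.gap_half (hβ : 1 < β) (hw : ‖w‖ = 1) (h : Ok β w S) {r : ℝ} (hr : ‖S.u‖ ≤ r)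
    (hr' : r ≤ 1 / 16) {i d : ℕ} (hi : i < d) :
    1 / 2 ≤ g ((Vale.Agent.P105.step β w S (S.n + d)).t * β ^ (S.n + i)) := by
  obtain ⟨z, hz⟩ := h.gap hβ hw hr hi
  refine (g_small hz ?_).1
  have hl := l_pos hβ
  have h1 : ∀ j : ℕ, (1 - β⁻¹) / 16 * β⁻¹ ^ j ≤ 1 / 16 := fun j =>
    (mul_le_of_le_one_right (by linarith [l_lt hβ]) (pow_le_one₀ hl.le (l_lt hβ).le)).trans
      (by linarith)
  linarith [h1 i, h1 (d - 1 - i)]

lemma cases3 {n d k : ℕ} (hk : k < n + (n + d)) :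
    k < n ∨ (∃ i < d, k = n + i) ∨ ∃ i < n, k = n + d + i := by
  by_cases h1 : k < n
  · exact Or.inl h1
  by_cases h2 : k < n + d
  · exact Or.inr (Or.inl ⟨k - n, by omega, by omega⟩)
  · exact Or.inr (Or.inr ⟨k - (n + d), by omega, by omega⟩)

lemma Ok.step_c (hβ : 1 < β) (hw : ‖w‖ = 1) (h : Ok β w S) {r c c' : ℝ} (hr : ‖S.u‖ ≤ r)
    (hr' : r ≤ 1 / 16) {j m : ℕ} (hm : S.n + j ≤ m) (hc : ∀ i < S.n, c ≤ g (S.t * β ^ i))
    (h1 : c' ≤ 1 / 2) (h2 : c' ≤ c - 4 * (β⁻¹ ^ j + 2 * r)) :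
    ∀ k < (Vale.Agent.P105.step β w S m).n,
      c' ≤ g ((Vale.Agent.P105.step β w S m).t * β ^ k) := by
  intro k hk
  have hr0 : 0 ≤ r := (norm_nonneg _).trans hr
  obtain ⟨d, rfl⟩ : ∃ d, m = S.n + d := ⟨m - S.n, by omega⟩
  rcases cases3 hk with h3 | ⟨i, hi, rfl⟩ | ⟨i, hi, rfl⟩
  · linarith [(abs_le.mp (h.win1 hβ h3 hm)).1, hc k h3]
  · exact h1.trans (h.gap_half hβ hw hr hr' hi)
  · linarith [(abs_le.mp (h.win2 hβ hw hr i hm)).1, hc i hi]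

lemma Ok.step_cs (hβ : 1 < β) (hw : ‖w‖ = 1) (h : Ok β w S) {δ c c' : ℝ} (hr : ‖S.u‖ ≤ 1 / 16)
    {j m : ℕ} (hm : S.n + j ≤ m) (hδ : ‖w ^ m - 1‖ ≤ δ) (hc : ∀ i < S.n, c ≤ g (S.t * β ^ i))
    (hcs : ∀ i < S.n, c ≤ g (S.s * β⁻¹ ^ i))
    (h1 : c' ≤ 1 / 2) (h2 : c' ≤ c - 4 * (β⁻¹ ^ j + 2 * δ)) :
    ∀ k < (Vale.Agent.P105.step β w S m).n,
      c' ≤ g ((Vale.Agent.P105.step β w S m).t * β ^ k) := by
  intro k hk
  have hr0 : 0 ≤ δ := (norm_nonneg _).trans hδ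
  obtain ⟨d, rfl⟩ : ∃ d, m = S.n + d := ⟨m - S.n, by omega⟩
  rcases cases3 hk with h3 | ⟨i, hi, rfl⟩ | ⟨i, hi, rfl⟩
  · linarith [(abs_le.mp (h.win1 hβ h3 hm)).1, hc k h3]
  · exact h1.trans (h.gap_half hβ hw hr le_rfl hi)
  · linarith [(abs_le.mp (h.win2s hβ hw (hr.trans (by norm_num)) i hm hδ)).1, hcs i hi]

lemma W_nonneg (β : ℝ) (S : St) : 0 ≤ W β S := prod_nonneg fun _ _ => g_nonneg _

lemma Ok.step_W (hβ : 1 < β) (hw : ‖w‖ = 1) (h : Ok β w S) {r c : ℝ} (hr : ‖S.u‖ ≤ r)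
    (hr' : r ≤ 1 / 16) {m : ℕ} (hm : S.n + S.n ≤ m) (hc0 : 0 < c)
    (hc : ∀ i < S.n, c ≤ g (S.t * β ^ i)) (hs : S.n * (4 * (β⁻¹ ^ S.n + 2 * r)) ≤ c / 2) :
    W β (Vale.Agent.P105.step β w S m) ≤ 4 * W β S ^ 2 ∧
      (m * r ^ 2 ≤ 1 → exp (-132) * W β S ^ 2 ≤ W β (Vale.Agent.P105.step β w S m)) := by
  have hr0 : 0 ≤ r := (norm_nonneg _).trans hr
  have hl := l_pos hβ
  obtain ⟨d, rfl⟩ : ∃ d, m = S.n + d := ⟨m - S.n, by omega⟩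
  set T := Vale.Agent.P105.step β w S (S.n + d) with hT
  have e : W β T = (∏ i ∈ range S.n, g (T.t * β ^ i)) * (∏ i ∈ range d, g (T.t * β ^ (S.n + i)))
      * ∏ i ∈ range S.n, g (T.t * β ^ (S.n + d + i)) := by
    have : T.n = S.n + d + S.n := by simp only [hT, Vale.Agent.P105.step]; ring
    unfold W
    rw [this, prod_range_add, prod_range_add]
  have hA := prod_near (n := S.n) (a := fun i => g (S.t * β ^ i)) (b := fun i => g (T.t * β ^ i))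
    (e := 4 * (β⁻¹ ^ S.n + 2 * r)) hc0 (by positivity) hc (fun i _ => g_nonneg _)
    (fun i hi => (h.win1 hβ hi hm).trans (by linarith)) hs
  have hB := prod_near (n := S.n) (a := fun i => g (S.t * β ^ i))
    (b := fun i => g (T.t * β ^ (S.n + d + i)))
    (e := 4 * (β⁻¹ ^ S.n + 2 * r)) hc0 (by positivity) hc (fun i _ => g_nonneg _)
    (fun i _ => h.win2 hβ hw hr i hm) hs
  have hG0 : 0 ≤ ∏ i ∈ range d, g (T.t * β ^ (S.n + i)) := prod_nonneg fun _ _ => g_nonneg _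
  have hG1 : ∏ i ∈ range d, g (T.t * β ^ (S.n + i)) ≤ 1 :=
    prod_le_one (fun _ _ => g_nonneg _) fun _ _ => g_le_one _
  have hW := W_nonneg β S
  rw [e]
  change W β S / 2 ≤ _ ∧ _ ≤ 2 * W β S at hA hB
  generalize (∏ i ∈ range S.n, g (T.t * β ^ i)) = A at *
  generalize (∏ i ∈ range S.n, g (T.t * β ^ (S.n + d + i))) = B at *
  have hA0 : 0 ≤ A := by linarith [hA.1]
  have hB0 : 0 ≤ B := by linarith [hB.1]
  constructor
  · calc A * (∏ i ∈ range d, g (T.t * β ^ (S.n + i))) * B ≤ A * 1 * B := by gcongr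
      _ ≤ (2 * W β S) * 1 * (2 * W β S) := by gcongr; exacts [hA.2, hB.2]
      _ = _ := by ring
  · intro hmr
    have hG : exp (-130) ≤ ∏ i ∈ range d, g (T.t * β ^ (S.n + i)) := by
      refine prod_gap hl.le (l_lt hβ) hr0 hr' ?_ fun i hi => h.gap hβ hw hr hi
      push_cast at hmr
      have : (0 : ℝ) ≤ S.n * r ^ 2 := by positivity
      linarith
    have h4 : exp (-132) ≤ exp (-130) / 4 := by
      rw [show (-130 : ℝ) = -132 + 2 by norm_num, exp_add]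
      have h5 : exp 2 = exp 1 * exp 1 := by rw [← exp_add]; norm_num
      have h6 : 4 ≤ exp 2 := by rw [h5]; nlinarith [exp_one_gt_d9]
      nlinarith [exp_pos (-132)]
    calc exp (-132) * W β S ^ 2 ≤ exp (-130) / 4 * W β S ^ 2 := by gcongr
      _ = (W β S / 2) * exp (-130) * (W β S / 2) := by ring
      _ ≤ _ := by gcongr; exacts [hA.1, hB.1]

lemma Ok.tail (hβ : 1 < β) (hw : ‖w‖ = 1) (h : Ok β w S) {r : ℝ} (hr : ‖S.u‖ ≤ r)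
    (hr' : r ≤ 1 / 16) {N K : ℕ} (hN : S.n ≤ N + 1) (hK : N + 1 ≤ K) :
    ∏ k ∈ range K, g (S.t * β ^ N * β⁻¹ ^ k) ≤ W β S ∧
      ((N + 1 : ℕ) * r ^ 2 ≤ 1 → exp (-260) * W β S ≤ ∏ k ∈ range K, g (S.t * β ^ N * β⁻¹ ^ k)) := by
  have hr0 : 0 ≤ r := (norm_nonneg _).trans hr
  have hl := l_pos hβ
  have hη : 0 ≤ (1 - β⁻¹) / 16 := by linarith [l_lt hβ]
  obtain ⟨e, rfl⟩ := Nat.exists_eq_add_of_le hK
  obtain ⟨d, hd⟩ := Nat.exists_eq_add_of_le hN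
  have e1 : ∏ k ∈ range (N + 1), g (S.t * β ^ N * β⁻¹ ^ k)
      = W β S * ∏ i ∈ range d, g (S.t * β ^ (S.n + i)) := by
    unfold W
    rw [← prod_range_add (fun k => g (S.t * β ^ k)), ← hd,
      ← prod_range_reflect (fun k => g (S.t * β ^ k))]
    refine prod_congr rfl fun k hk => ?_
    have hk' := mem_range.mp hk
    congr 1
    obtain ⟨j, rfl⟩ : ∃ j, N = k + j := ⟨N - k, by omega⟩
    rw [show k + j + 1 - 1 - k = j by omega, pow_add]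
    linear_combination (S.t * β ^ j) * l_mul hβ k
  rw [prod_range_add, e1]
  have hW := W_nonneg β S
  have hA0 : 0 ≤ ∏ i ∈ range d, g (S.t * β ^ (S.n + i)) := prod_nonneg fun _ _ => g_nonneg _
  have hA1 : ∏ i ∈ range d, g (S.t * β ^ (S.n + i)) ≤ 1 :=
    prod_le_one (fun _ _ => g_nonneg _) fun _ _ => g_le_one _
  have hB0 : 0 ≤ ∏ i ∈ range e, g (S.t * β ^ N * β⁻¹ ^ (N + 1 + i)) :=
    prod_nonneg fun _ _ => g_nonneg _
  have hB1 : ∏ i ∈ range e, g (S.t * β ^ N * β⁻¹ ^ (N + 1 + i)) ≤ 1 :=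
    prod_le_one (fun _ _ => g_nonneg _) fun _ _ => g_le_one _
  constructor
  · calc _ ≤ W β S * 1 * 1 := by gcongr
      _ = _ := by ring
  · intro hmr
    have hA : exp (-130) ≤ ∏ i ∈ range d, g (S.t * β ^ (S.n + i)) := by
      refine prod_gap hl.le (l_lt hβ) hr0 hr' ?_ fun i hi => ?_
      · rw [hd] at hmr
        push_cast at hmr
        have : (0 : ℝ) ≤ S.n * r ^ 2 := by positivity
        linarith
      · obtain ⟨z, hz⟩ := h.post hβ hw hr i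
        refine ⟨z, hz.trans ?_⟩
        have : 0 ≤ (1 - β⁻¹) / 16 * β⁻¹ ^ (d - 1 - i) := by positivity
        linarith
    have hB : exp (-130) ≤ ∏ i ∈ range e, g (S.t * β ^ N * β⁻¹ ^ (N + 1 + i)) := by
      refine prod_gap (r := 0) hl.le (l_lt hβ) le_rfl (by norm_num) (by simp) fun i hi => ?_
      refine ⟨0, ?_⟩
      have h1 := h.pre hβ (i := N) (j := i) (m := N + 1 + i) (by omega)
      have : 0 ≤ (1 - β⁻¹) / 16 * β⁻¹ ^ (e - 1 - i) := by positivity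
      rw [Int.cast_zero, sub_zero, mul_right_comm, abs_of_nonneg h1.1]
      linarith [h1.2]
    calc exp (-260) * W β S = W β S * exp (-130) * exp (-130) := by
          rw [mul_assoc, ← exp_add, mul_comm]; norm_num
      _ ≤ _ := by gcongr

end Vale.Agent.P105
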